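import Mathlib

/-!
# Corner-truncated simplices in every dimension: definitions

Project P254 (all-`n` version of `C_TruncatedTetrahedron`).  See `PLAN.md` in this folder.
Atoms are the truncation parameters `t i ∈ (0,1]`; `y = sqrt (∏ t i)`.
-/

namespace Vale.Agent.H51.Trunc

/-- `a_y(t) = y (1 - t) / (1 + t y)` -/
noncomputable def fa (y t : ℝ) : ℝ := y * (1 - t) / (1 + t * y)

/-- `b_y(t) = y (1 - t) / (1 - t y)` -/
noncomputable def fb (y t : ℝ) : ℝ := y * (1 - t) / (1 - t * y)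

/-- `A(s) = (1 - y) - ∑ a_y(t)` over the atoms `t` of `s` -/
noncomputable def sA (y : ℝ) (s : Multiset ℝ) : ℝ := (1 - y) - (s.map (fa y)).sum

/-- `B(s) = (1 + y) + ∑ b_y(t)` over the atoms `t` of `s` -/
noncomputable def sB (y : ℝ) (s : Multiset ℝ) : ℝ := (1 + y) + (s.map (fb y)).sum

/-- `C(s) = ∏ (1 - y² t²)` over the atoms `t` of `s` -/
noncomputable def sC (y : ℝ) (s : Multiset ℝ) : ℝ := (s.map (fun t => 1 - y ^ 2 * t ^ 2)).prod

/-- `F(s) = C(s) A(s) B(s)` -/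
noncomputable def sF (y : ℝ) (s : Multiset ℝ) : ℝ := sC y s * sA y s * sB y s

/-- the merging functional: merging two atoms into the atom `τ` increases `F` as soon as
`psi y τ A B ≥ 0`, where `A`, `B` are the values for the merged configuration -/
def psi (y τ A B : ℝ) : ℝ :=
  (1 - τ * y ^ 2) * ((1 - y) * (1 - τ * y) ^ 2 * B - (1 + y) * (1 + τ * y) ^ 2 * A)
    - 2 * y * (1 + τ) * (1 - τ ^ 2 * y ^ 2) * A * B

/-- the two-parameter polynomial to which the key lemma reduces (`x = τ^k`) -/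
def Gam (τ x k : ℝ) : ℝ :=
  (1 + τ) * (1 - τ) ^ 2 * x * k ^ 2
    + (1 - τ) * (1 + 2 * x - 2 * τ ^ 2 * x - τ ^ 2 * x ^ 2) * k
    - (1 - x) * (1 + 3 * τ - 3 * τ ^ 2 * x - τ ^ 3 * x)

/-- closed form of `det N / (n + 2)` for the corner-truncated `n`-simplex with parameters `t` -/
noncomputable def truncFn {n : ℕ} (t : Fin n → ℝ) : ℝ :=
  (∏ i, (1 - (∏ j, t j) * t i ^ 2)) *
    ((1 - ∏ j, t j)
      - 2 * (∏ j, t j) * ((∑ i, 1 / (1 - (∏ j, t j) * t i ^ 2))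
          - 2 * (∑ i, t i / (1 - (∏ j, t j) * t i ^ 2))
          + ∑ i, t i ^ 2 / (1 - (∏ j, t j) * t i ^ 2))
      - (∏ j, t j) * ((∑ i, 1 / (1 - (∏ j, t j) * t i ^ 2))
          - ∑ i, t i / (1 - (∏ j, t j) * t i ^ 2)) ^ 2
      + (∏ j, t j) ^ 2 * ((∑ i, t i / (1 - (∏ j, t j) * t i ^ 2))
          - ∑ i, t i ^ 2 / (1 - (∏ j, t j) * t i ^ 2)) ^ 2)

end Vale.Agent.H51.Trunc
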