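import Mathlib
import Vale.Agent.H68.IsoRatio
import Vale.Agent.H51.Trunc.Defs

/-! Definitions for the determinant of the normalised moment matrix, every `n`. -/

namespace Vale.Agent.H51.Trunc

open Matrix Vale.Agent.H68

variable {n : ℕ}

/-- the column-stochastic matrix expressing the vertices `v 0, v 0 + t i (v (i+1) - v 0)` of the
cut-off corner simplex in terms of the vertices of the big simplex:
column `0` is `e_0`, column `j+1` is `(1 - t j) e_0 + t j e_(j+1)` -/
def truncT (t : Fin n → ℝ) : Matrix (Fin (n + 1)) (Fin (n + 1)) ℝ :=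
  Matrix.of fun a b =>
    Fin.cases (motive := fun _ => ℝ)
      (Fin.cases (motive := fun _ => ℝ) 1 (fun j => 1 - t j) b)
      (fun i => Fin.cases (motive := fun _ => ℝ) 0 (fun j => if i = j then t j else 0) b) a

@[simp] lemma truncT_zero_zero (t : Fin n → ℝ) : truncT t 0 0 = 1 := rfl
@[simp] lemma truncT_zero_succ (t : Fin n → ℝ) (j : Fin n) : truncT t 0 j.succ = 1 - t j := rfl
@[simp] lemma truncT_succ_zero (t : Fin n → ℝ) (i : Fin n) : truncT t i.succ 0 = 0 := rfl
@[simp] lemma truncT_succ_succ (t : Fin n → ℝ) (i j : Fin n) :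
    truncT t i.succ j.succ = if i = j then t j else 0 := rfl

/-- `G - p T G Tᵀ` with `G = 1 + J` (the barycentric moment matrix of a simplex) -/
def truncN (t : Fin n → ℝ) : Matrix (Fin (n + 1)) (Fin (n + 1)) ℝ :=
  (1 + colOne (n + 1) * rowOne (n + 1))
    - (∏ i, t i) • (truncT t * (1 + colOne (n + 1) * rowOne (n + 1)) * (truncT t).transpose)

/-- unimodular change of basis from barycentric to affine coordinates:
first row all ones, identity below -/
def truncC (n : ℕ) : Matrix (Fin (n + 1)) (Fin (n + 1)) ℝ :=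
  Matrix.of fun a b => if a = 0 then 1 else if a = b then 1 else 0

/-- the diagonal part after the change of basis -/
def truncD (t : Fin n → ℝ) : Fin (n + 1) → ℝ :=
  Fin.cases (motive := fun _ => ℝ) (-((n : ℝ) + 2) * (1 - ∏ i, t i))
    (fun i => 1 - (∏ j, t j) * t i ^ 2)

/-- the vectors `(n+2, 1, ..., 1)` and `(n+2, t 0, ..., t (n-1))` -/
def truncU1 (n : ℕ) : Fin (n + 1) → ℝ := Fin.cases (motive := fun _ => ℝ) ((n : ℝ) + 2) (fun _ => 1)
def truncU2 (t : Fin n → ℝ) : Fin (n + 1) → ℝ :=
  Fin.cases (motive := fun _ => ℝ) ((n : ℝ) + 2) (fun i => t i)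

end Vale.Agent.H51.Trunc
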