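import Mathlib
import Vale.Agent.H68.IsoRatio
import Vale.Agent.H51.Trunc.Det

/-! Row R10d: rank-two determinant lemma for a diagonal matrix. -/

namespace Vale.Agent.H51.Trunc

open Matrix Vale.Agent.H68

variable {n : ℕ}

/-- R10d.  rank-two determinant lemma for a diagonal matrix (`Matrix.det_add_mul` with
`U : Matrix (Fin (n+1)) (Fin 2) ℝ` having columns `u1, u2` and `V` having rows `u1, -p u2`;
`Matrix.det_fin_two`; `Matrix.inv_diagonal`).  Here `d a ≠ 0` for all `a`. -/
lemma det_diag_rank_two {N : ℕ} (d u1 u2 : Fin N → ℝ) (q : ℝ) (hd : ∀ a, d a ≠ 0) :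
    (Matrix.of fun a b : Fin N => (if a = b then d a else 0) + u1 a * u1 b - q * (u2 a * u2 b)).det
      = (∏ a, d a) * ((1 + ∑ a, u1 a ^ 2 / d a) * (1 - q * ∑ a, u2 a ^ 2 / d a)
          + q * (∑ a, u1 a * u2 a / d a) ^ 2) := by
  classical
  set U : Matrix (Fin N) (Fin 2) ℝ := Matrix.of fun a j => if j = 0 then u1 a else u2 a with hU
  set V : Matrix (Fin 2) (Fin N) ℝ := Matrix.of fun j b => if j = 0 then u1 b else -q * u2 b
    with hV
  have hM : (Matrix.of fun a b : Fin N =>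
      (if a = b then d a else 0) + u1 a * u1 b - q * (u2 a * u2 b)) = Matrix.diagonal d + U * V := by
    ext a b
    simp only [Matrix.of_apply, Matrix.add_apply, Matrix.mul_apply, Fin.sum_univ_two, hU, hV,
      Matrix.diagonal_apply]
    simp
    ring
  have hdet : IsUnit (Matrix.diagonal d).det := by
    rw [Matrix.det_diagonal]
    exact isUnit_iff_ne_zero.2 (Finset.prod_ne_zero_iff.2 fun a _ => hd a)
  rw [hM, Matrix.det_add_mul U V hdet, Matrix.det_diagonal]
  congr 1
  have hinv : (Matrix.diagonal d)⁻¹ = Matrix.diagonal (fun a => (d a)⁻¹) := by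
    apply Matrix.inv_eq_right_inv
    rw [Matrix.diagonal_mul_diagonal]
    ext a b
    by_cases h : a = b
    · subst h
      simp [mul_inv_cancel₀ (hd a)]
    · simp [h]
  rw [hinv, Matrix.det_fin_two]
  have e : ∀ i j : Fin 2, (1 + V * Matrix.diagonal (fun a => (d a)⁻¹) * U : Matrix (Fin 2) (Fin 2) ℝ) i j
      = (if i = j then 1 else 0) + ∑ a, V i a * (d a)⁻¹ * U a j := by
    intro i j
    rw [Matrix.add_apply, Matrix.mul_apply, Matrix.one_apply]
    congr 1
    apply Finset.sum_congr rfl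
    intro a _
    rw [Matrix.mul_diagonal]
  rw [e, e, e, e]
  simp only [hU, hV, Matrix.of_apply]
  simp only [Fin.isValue, ↓reduceIte, one_ne_zero, zero_ne_one]
  have s1 : ∑ a, u1 a * (d a)⁻¹ * u1 a = ∑ a, u1 a ^ 2 / d a :=
    Finset.sum_congr rfl fun a _ => by rw [div_eq_mul_inv]; ring
  have s2 : ∑ a, -q * u2 a * (d a)⁻¹ * u2 a = -q * ∑ a, u2 a ^ 2 / d a := by
    rw [Finset.mul_sum]
    exact Finset.sum_congr rfl fun a _ => by rw [div_eq_mul_inv]; ring
  have s3 : ∑ a, u1 a * (d a)⁻¹ * u2 a = ∑ a, u1 a * u2 a / d a :=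
    Finset.sum_congr rfl fun a _ => by rw [div_eq_mul_inv]; ring
  have s4 : ∑ a, -q * u2 a * (d a)⁻¹ * u1 a = -q * ∑ a, u1 a * u2 a / d a := by
    rw [Finset.mul_sum]
    exact Finset.sum_congr rfl fun a _ => by rw [div_eq_mul_inv]; ring
  rw [s1, s2, s3, s4]
  ring

end Vale.Agent.H51.Trunc
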