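import Mathlib
import Vale.Agent.H51.Trunc.Defs

/-! Row R3: the chord (concavity) bound. -/

namespace Vale.Agent.H51.Trunc

/-- For `-1 < w < 1` the function `g(s) = (1 - e^{-s}) / (1 + w e^{-s}) = 1 - (1+w)/(e^s + w)`
is concave on `[0, ∞)` (second derivative of `1/(e^s + w)` is `e^s (e^s - w)/(e^s + w)^3 ≥ 0`)
and `g 0 = 0`, so `g(s) ≥ (s / s₀) g(s₀)` for `0 ≤ s ≤ s₀`.  With `t = e^{-s}`, `τ = e^{-s₀}`:
`log t / log τ = s / s₀`.
(Alternative: `φ(t) = (1-t)(1+wτ)(-log τ) - (1-τ)(1+wt)(-log t)` is concave on `[τ,1]` and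
vanishes at both ends.) -/
lemma chord (w τ t : ℝ) (hw1 : -1 < w) (hw2 : w < 1) (hτ0 : 0 < τ) (hτ1 : τ < 1)
    (hτt : τ ≤ t) (ht1 : t ≤ 1) :
    Real.log t / Real.log τ * ((1 - τ) / (1 + w * τ)) ≤ (1 - t) / (1 + w * t) := by
  have hlogτ : Real.log τ < 0 := Real.log_neg hτ0 hτ1
  have ht0 : 0 < t := lt_of_lt_of_le hτ0 hτt
  have h1τ : 0 < 1 + w * τ := by nlinarith
  have h1t : 0 < 1 + w * t := by nlinarith
  have hB : 0 ≤ 1 - τ := by linarith
  have hder : ∀ x : ℝ, 0 < x →
      HasDerivAt (fun x : ℝ => (1 - x) * ((1 + w * τ) * (-Real.log τ)) +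
          (1 - τ) * ((1 + w * x) * Real.log x))
        (-1 * ((1 + w * τ) * (-Real.log τ)) +
          (1 - τ) * (w * 1 * Real.log x + (1 + w * x) * x⁻¹)) x := by
    intro x hx
    have h1 : HasDerivAt (fun x : ℝ => (1 - x)) (-1) x := by
      simpa using (hasDerivAt_id x).const_sub 1
    have h2 : HasDerivAt (fun x : ℝ => 1 + w * x) (w * 1) x :=
      ((hasDerivAt_id x).const_mul w).const_add 1
    have h3 : HasDerivAt Real.log x⁻¹ x := Real.hasDerivAt_log (ne_of_gt hx)
    exact (h1.mul_const _).add ((h2.mul h3).const_mul _)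
  have hconc : ConcaveOn ℝ (Set.Icc τ 1) (fun x : ℝ => (1 - x) * ((1 + w * τ) * (-Real.log τ)) +
          (1 - τ) * ((1 + w * x) * Real.log x)) := by
    apply AntitoneOn.concaveOn_of_deriv (convex_Icc τ 1)
    · intro x hx
      exact (hder x (lt_of_lt_of_le hτ0 hx.1)).continuousAt.continuousWithinAt
    · intro x hx
      rw [interior_Icc] at hx
      exact (hder x (lt_trans hτ0 hx.1)).differentiableAt.differentiableWithinAt
    · intro x hx y hy hxy
      rw [interior_Icc] at hx hy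
      have hx0 : 0 < x := lt_trans hτ0 hx.1
      have hy0 : 0 < y := lt_trans hτ0 hy.1
      rw [(hder x hx0).deriv, (hder y hy0).deriv]
      have key : w * Real.log y + (1 + w * y) * y⁻¹ ≤ w * Real.log x + (1 + w * x) * x⁻¹ := by
        have e1 : (1 + w * y) * y⁻¹ = y⁻¹ + w := by field_simp
        have e2 : (1 + w * x) * x⁻¹ = x⁻¹ + w := by field_simp
        rw [e1, e2]
        have hinv : y⁻¹ ≤ x⁻¹ := by
          rw [inv_le_inv₀ hy0 hx0]; exact hxy
        rcases le_or_gt w 0 with hw | hw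
        · have hlog : Real.log x ≤ Real.log y := Real.log_le_log hx0 hxy
          nlinarith
        · have hlog : Real.log y - Real.log x ≤ y / x - 1 := by
            rw [← Real.log_div (ne_of_gt hy0) (ne_of_gt hx0)]
            have := Real.log_le_sub_one_of_pos (div_pos hy0 hx0)
            linarith
          have hdiff : x⁻¹ - y⁻¹ = (y - x) / (x * y) := by field_simp
          have h2 : w * (y / x - 1) ≤ (y - x) / (x * y) := by
            have e3 : w * (y / x - 1) = (w * y) * (y - x) / (x * y) := by field_simp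
            rw [e3]
            apply div_le_div_of_nonneg_right _ (le_of_lt (mul_pos hx0 hy0))
            have hwy : w * y ≤ 1 := by nlinarith [hy.2]
            nlinarith
          nlinarith
      nlinarith
  have hmin := hconc.min_le_of_mem_Icc (Set.left_mem_Icc.2 hτ1.le) (Set.right_mem_Icc.2 hτ1.le)
    (show t ∈ Set.Icc τ 1 from ⟨hτt, ht1⟩)
  have hz : min ((1 - τ) * ((1 + w * τ) * (-Real.log τ)) + (1 - τ) * ((1 + w * τ) * Real.log τ))
      ((1 - 1) * ((1 + w * τ) * (-Real.log τ)) + (1 - τ) * ((1 + w * 1) * Real.log 1)) = 0 := by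
    rw [Real.log_one]
    have : (1 - τ) * ((1 + w * τ) * (-Real.log τ)) + (1 - τ) * ((1 + w * τ) * Real.log τ) = 0 := by
      ring
    rw [this]; simp
  have hφ : 0 ≤ (1 - t) * ((1 + w * τ) * (-Real.log τ)) + (1 - τ) * ((1 + w * t) * Real.log t) := by
    have h := hmin
    beta_reduce at h
    rw [hz] at h
    exact h
  have hnegτ : 0 < -Real.log τ := by linarith
  have e : Real.log t / Real.log τ * ((1 - τ) / (1 + w * τ)) =
      (-Real.log t) * (1 - τ) / ((-Real.log τ) * (1 + w * τ)) := by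
    rw [← neg_div_neg_eq, div_mul_div_comm]
  rw [e, div_le_div_iff₀ (mul_pos hnegτ h1τ) h1t]
  nlinarith

end Vale.Agent.H51.Trunc
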