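import Mathlib
import Vale.Agent.H51.Trunc.Chord

/-! Row R4: summing the chord bound over a multiset of atoms. -/

namespace Vale.Agent.H51.Trunc

/-- generic multiset induction behind `sum_fa_ge` and `sum_fb_ge`: if `log t / log τ * c ≤ g t`
for every atom `t` of `s`, and all atoms are positive, then the product is positive and
`log (prod s) / log τ * c ≤ sum of g over s`. -/
lemma chordsum_aux (τ c : ℝ) (g : ℝ → ℝ) (s : Multiset ℝ)
    (hs : ∀ t ∈ s, 0 < t ∧ Real.log t / Real.log τ * c ≤ g t) :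
    0 < s.prod ∧ Real.log s.prod / Real.log τ * c ≤ (s.map g).sum := by
  induction s using Multiset.induction_on with
  | empty => simp
  | cons a s ih =>
    have ha := hs a (Multiset.mem_cons_self a s)
    have ih' := ih (fun t ht => hs t (Multiset.mem_cons_of_mem ht))
    refine ⟨?_, ?_⟩
    · rw [Multiset.prod_cons]
      exact mul_pos ha.1 ih'.1
    · rw [Multiset.prod_cons, Multiset.map_cons, Multiset.sum_cons,
        Real.log_mul ha.1.ne' ih'.1.ne', add_div, add_mul]
      exact add_le_add ha.2 ih'.2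

/-- `chord` with `w = y`, multiplied by `y`, summed over `s` (induction on `s`;
`log (t * p) = log t + log p` for positive reals). -/
lemma sum_fa_ge (y τ : ℝ) (hy0 : 0 < y) (hy1 : y < 1) (hτ0 : 0 < τ) (hτ1 : τ < 1)
    (s : Multiset ℝ) (hs : ∀ t ∈ s, τ ≤ t ∧ t ≤ 1) :
    Real.log s.prod / Real.log τ * fa y τ ≤ (s.map (fa y)).sum := by
  refine (chordsum_aux τ (fa y τ) (fa y) s ?_).2
  intro t ht
  obtain ⟨h1, h2⟩ := hs t ht
  refine ⟨lt_of_lt_of_le hτ0 h1, ?_⟩
  have hc := chord y τ t (by linarith) hy1 hτ0 hτ1 h1 h2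
  have e1 : fa y τ = y * ((1 - τ) / (1 + y * τ)) := by
    unfold fa
    rw [mul_div_assoc, mul_comm τ y]
  have e2 : fa y t = y * ((1 - t) / (1 + y * t)) := by
    unfold fa
    rw [mul_div_assoc, mul_comm t y]
  rw [e1, e2]
  calc Real.log t / Real.log τ * (y * ((1 - τ) / (1 + y * τ)))
      = y * (Real.log t / Real.log τ * ((1 - τ) / (1 + y * τ))) := by ring
    _ ≤ y * ((1 - t) / (1 + y * t)) := mul_le_mul_of_nonneg_left hc hy0.le

/-- `chord` with `w = -y`. -/
lemma sum_fb_ge (y τ : ℝ) (hy0 : 0 < y) (hy1 : y < 1) (hτ0 : 0 < τ) (hτ1 : τ < 1)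
    (s : Multiset ℝ) (hs : ∀ t ∈ s, τ ≤ t ∧ t ≤ 1) :
    Real.log s.prod / Real.log τ * fb y τ ≤ (s.map (fb y)).sum := by
  refine (chordsum_aux τ (fb y τ) (fb y) s ?_).2
  intro t ht
  obtain ⟨h1, h2⟩ := hs t ht
  refine ⟨lt_of_lt_of_le hτ0 h1, ?_⟩
  have hc := chord (-y) τ t (by linarith) (by linarith) hτ0 hτ1 h1 h2
  have e1 : fb y τ = y * ((1 - τ) / (1 + -y * τ)) := by
    unfold fb
    rw [mul_div_assoc]
    congr 2
    ring
  have e2 : fb y t = y * ((1 - t) / (1 + -y * t)) := by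
    unfold fb
    rw [mul_div_assoc]
    congr 2
    ring
  rw [e1, e2]
  calc Real.log t / Real.log τ * (y * ((1 - τ) / (1 + -y * τ)))
      = y * (Real.log t / Real.log τ * ((1 - τ) / (1 + -y * τ))) := by ring
    _ ≤ y * ((1 - t) / (1 + -y * t)) := mul_le_mul_of_nonneg_left hc hy0.le

end Vale.Agent.H51.Trunc
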