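import Mathlib
import Vale.Agent.H51.Trunc.Defs

/-! Row R1: the power-series inequality. -/

namespace Vale.Agent.H51.Trunc

/-- The Taylor coefficient `c_j` of the `cosh` combination. -/
noncomputable def r1c (k : ℝ) (j : ℕ) : ℝ :=
  (k - 1) * (2 * k + 3) ^ (2 * j) - (k + 3) * (2 * k + 1) ^ (2 * j)
    + (k + 1) ^ 2 * 9 ^ j - (k - 1) * (k + 3)

lemma r1_rec (k : ℝ) (j : ℕ) :
    r1c k (j + 2) - 9 * r1c k (j + 1) = (r1c k (j + 1) - 9 * r1c k j)
      + 16 * (k - 1) * k * (k + 1) * (k + 2) * (k + 3)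
        * ((2 * k + 3) ^ (2 * j) - (2 * k + 1) ^ (2 * j)) := by
  unfold r1c
  ring

lemma r1_step (k : ℝ) (hk : 1 ≤ k) (j : ℕ) :
    0 ≤ 16 * (k - 1) * k * (k + 1) * (k + 2) * (k + 3)
      * ((2 * k + 3) ^ (2 * j) - (2 * k + 1) ^ (2 * j)) := by
  have h1 : (2 * k + 1) ^ (2 * j) ≤ (2 * k + 3) ^ (2 * j) :=
    pow_le_pow_left₀ (by linarith) (by linarith) _
  have a0 : (0 : ℝ) ≤ k - 1 := by linarith
  have a1 : (0 : ℝ) ≤ k := by linarith
  have a2 : (0 : ℝ) ≤ k + 1 := by linarith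
  have a3 : (0 : ℝ) ≤ k + 2 := by linarith
  have a4 : (0 : ℝ) ≤ k + 3 := by linarith
  have h2 : 0 ≤ 16 * (k - 1) * k * (k + 1) * (k + 2) * (k + 3) :=
    mul_nonneg (mul_nonneg (mul_nonneg (mul_nonneg (mul_nonneg (by norm_num) a0) a1) a2) a3) a4
  exact mul_nonneg h2 (by linarith)

lemma r1_ind (k : ℝ) (hk : 1 ≤ k) (j : ℕ) :
    0 ≤ r1c k j ∧ 0 ≤ r1c k (j + 1) - 9 * r1c k j := by
  induction j with
  | zero =>
    have h0 : r1c k 0 = 0 := by
      unfold r1c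
      ring
    have h1 : r1c k (0 + 1) = 0 := by
      unfold r1c
      ring
    rw [h1, h0]
    constructor <;> norm_num
  | succ j ih =>
    obtain ⟨ih1, ih2⟩ := ih
    constructor
    · linarith
    · have h := r1_rec k j
      have h2 := r1_step k hk j
      have e : j + 1 + 1 = j + 2 := rfl
      rw [e]
      linarith

/-- Taylor coefficients of the `cosh` combination are nonnegative.
Proof: `c 0 = c 1 = 0` (ring) and
`c (j+2) - 10 c (j+1) + 9 c j = 16 (k-1) k (k+1) (k+2) (k+3) ((2k+3)^(2j) - (2k+1)^(2j)) ≥ 0`,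
hence `c (j+1) - 9 c j ≥ 0` by induction, hence `c (j+1) ≥ 9 c j ≥ 0`. -/
lemma cj_nonneg (k : ℝ) (hk : 1 ≤ k) (j : ℕ) :
    0 ≤ (k - 1) * (2 * k + 3) ^ (2 * j) - (k + 3) * (2 * k + 1) ^ (2 * j)
      + (k + 1) ^ 2 * 9 ^ j - (k - 1) * (k + 3) :=
  (r1_ind k hk j).1

/-- Proof: `Real.hasSum_cosh` for each of the four terms, powers of products split by `mul_pow`;
the combination is a `HasSum` of the terms `c_j h^(2j) / (2j)!`, all `≥ 0` by `cj_nonneg`;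
`hasSum_nonneg`-type lemma. -/
lemma Gt_nonneg (h k : ℝ) (hk : 1 ≤ k) :
    0 ≤ (k - 1) * Real.cosh ((2 * k + 3) * h) - (k + 3) * Real.cosh ((2 * k + 1) * h)
      + (k + 1) ^ 2 * Real.cosh (3 * h) - (k - 1) * (k + 3) * Real.cosh h := by
  have h1 := (Real.hasSum_cosh ((2 * k + 3) * h)).mul_left (k - 1)
  have h2 := (Real.hasSum_cosh ((2 * k + 1) * h)).mul_left (k + 3)
  have h3 := (Real.hasSum_cosh (3 * h)).mul_left ((k + 1) ^ 2)
  have h4 := (Real.hasSum_cosh h).mul_left ((k - 1) * (k + 3))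
  have hs := ((h1.sub h2).add h3).sub h4
  refine HasSum.nonneg ?_ hs
  intro n
  have e3 : (3 : ℝ) ^ (2 * n) = 9 ^ n := by
    rw [pow_mul]
    norm_num
  have hc := cj_nonneg k hk n
  have hp : 0 ≤ h ^ (2 * n) / ((2 * n).factorial : ℝ) :=
    div_nonneg ((even_two_mul n).pow_nonneg h) (Nat.cast_nonneg _)
  have key : (k - 1) * (((2 * k + 3) * h) ^ (2 * n) / ((2 * n).factorial : ℝ))
      - (k + 3) * (((2 * k + 1) * h) ^ (2 * n) / ((2 * n).factorial : ℝ))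
      + (k + 1) ^ 2 * ((3 * h) ^ (2 * n) / ((2 * n).factorial : ℝ))
      - (k - 1) * (k + 3) * (h ^ (2 * n) / ((2 * n).factorial : ℝ))
      = ((k - 1) * (2 * k + 3) ^ (2 * n) - (k + 3) * (2 * k + 1) ^ (2 * n)
        + (k + 1) ^ 2 * 9 ^ n - (k - 1) * (k + 3)) * (h ^ (2 * n) / ((2 * n).factorial : ℝ)) := by
    rw [mul_pow, mul_pow, mul_pow, e3]
    ring
  show 0 ≤ (k - 1) * (((2 * k + 3) * h) ^ (2 * n) / ((2 * n).factorial : ℝ))
      - (k + 3) * (((2 * k + 1) * h) ^ (2 * n) / ((2 * n).factorial : ℝ))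
      + (k + 1) ^ 2 * ((3 * h) ^ (2 * n) / ((2 * n).factorial : ℝ))
      - (k - 1) * (k + 3) * (h ^ (2 * n) / ((2 * n).factorial : ℝ))
  rw [key]
  exact mul_nonneg hc hp

end Vale.Agent.H51.Trunc
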