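import Mathlib
import Vale.Agent.H51.Trunc.Cosh

/-! Row R2: `Gam τ x k ≥ 0` when `x = τ^k`, `k ≥ 1`. -/

namespace Vale.Agent.H51.Trunc

/-- Proof: put `h = -log τ / 2 > 0`, so `τ = exp (-2h)`, `x = exp (-2kh)`.  With `q = exp (-h)`
(`τ = q^2`) one has the rational identity
`Gam τ x k = 2 * x * q^3 * ((k-1) cosh((2k+3)h) - (k+3) cosh((2k+1)h) + (k+1)^2 cosh(3h)
  - (k-1)(k+3) cosh h)`, where `cosh((2k+3)h) = (1/(x q^3) + x q^3)/2`,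
`cosh((2k+1)h) = (1/(x q) + x q)/2`, `cosh(3h) = (q^-3 + q^3)/2`, `cosh h = (q^-1 + q)/2`.
Then `Gt_nonneg`. -/
lemma Gam_nonneg (τ x k : ℝ) (hτ0 : 0 < τ) (hτ1 : τ < 1) (hk : 1 ≤ k) (hx0 : 0 < x)
    (hx : Real.log x = k * Real.log τ) : 0 ≤ Gam τ x k := by
  obtain ⟨h, hh⟩ : ∃ h : ℝ, h = -Real.log τ / 2 := ⟨_, rfl⟩
  obtain ⟨E, hE⟩ : ∃ E : ℝ, E = Real.exp h := ⟨_, rfl⟩
  have hE0 : 0 < E := by
    rw [hE]
    exact Real.exp_pos h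
  have hE2 : E ^ 2 = Real.exp (2 * h) := by
    rw [hE, ← Real.exp_nat_mul]
    norm_num
  have hE3 : Real.exp (3 * h) = E ^ 3 := by
    rw [hE, ← Real.exp_nat_mul]
    norm_num
  have hτE : τ * E ^ 2 = 1 := by
    have h2 : 2 * h = -Real.log τ := by
      rw [hh]
      ring
    rw [hE2, h2, Real.exp_neg, Real.exp_log hτ0]
    exact mul_inv_cancel₀ hτ0.ne'
  have hxk : Real.exp (2 * k * h) = x⁻¹ := by
    have h2 : 2 * k * h = -Real.log x := by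
      rw [hx, hh]
      ring
    rw [h2, Real.exp_neg, Real.exp_log hx0]
  have hxk' : Real.exp (-(2 * k * h)) = x := by
    rw [Real.exp_neg, hxk, inv_inv]
  have c1 : Real.cosh ((2 * k + 3) * h) = (x⁻¹ * E ^ 3 + x * (E ^ 3)⁻¹) / 2 := by
    have e1 : (2 * k + 3) * h = 2 * k * h + 3 * h := by ring
    have e2 : -(2 * k * h + 3 * h) = -(2 * k * h) + -(3 * h) := by ring
    rw [Real.cosh_eq, e1, e2, Real.exp_add, Real.exp_add, hxk, hxk', Real.exp_neg, hE3]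
  have c2 : Real.cosh ((2 * k + 1) * h) = (x⁻¹ * E + x * E⁻¹) / 2 := by
    have e1 : (2 * k + 1) * h = 2 * k * h + h := by ring
    have e2 : -(2 * k * h + h) = -(2 * k * h) + -h := by ring
    rw [Real.cosh_eq, e1, e2, Real.exp_add, Real.exp_add, hxk, hxk', Real.exp_neg, ← hE]
  have c3 : Real.cosh (3 * h) = (E ^ 3 + (E ^ 3)⁻¹) / 2 := by
    rw [Real.cosh_eq, Real.exp_neg, hE3]
  have c4 : Real.cosh h = (E + E⁻¹) / 2 := by
    rw [Real.cosh_eq, Real.exp_neg, ← hE]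
  have hG := Gt_nonneg h k hk
  rw [c1, c2, c3, c4] at hG
  have hτ : τ = (E ^ 2)⁻¹ := eq_inv_of_mul_eq_one_left hτE
  have key : Gam τ x k = 2 * x * (E ^ 3)⁻¹ *
      ((k - 1) * ((x⁻¹ * E ^ 3 + x * (E ^ 3)⁻¹) / 2) - (k + 3) * ((x⁻¹ * E + x * E⁻¹) / 2)
        + (k + 1) ^ 2 * ((E ^ 3 + (E ^ 3)⁻¹) / 2) - (k - 1) * (k + 3) * ((E + E⁻¹) / 2)) := by
    unfold Gam
    rw [hτ]
    have hE0' : E ≠ 0 := hE0.ne'
    have hx0' : x ≠ 0 := hx0.ne'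
    field_simp
    ring
  rw [key]
  exact mul_nonneg (by positivity) hG

end Vale.Agent.H51.Trunc
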