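import Mathlib
import Vale.Agent.H51.Trunc.Defs

/-! Row R5: algebra of `psi`. -/

namespace Vale.Agent.H51.Trunc

/-- pure algebra (`unfold psi Gam fa fb; field_simp; ring`), using `1 + τ y ≠ 0`, `1 - τ y ≠ 0` -/
lemma psi_star (y τ k : ℝ) (hy0 : 0 < y) (hy1 : y < 1) (hτ0 : 0 < τ) (hτ1 : τ ≤ 1) :
    psi y τ ((1 - y) - k * fa y τ) ((1 + y) + k * fb y τ) = 2 * y * Gam τ (y ^ 2) k := by
  have hτy : τ * y < 1 := by nlinarith
  have h1 : 1 + τ * y ≠ 0 := by positivity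
  have h2 : 1 - τ * y ≠ 0 := by
    intro h
    linarith
  unfold psi Gam fa fb
  field_simp
  ring

/-- `psi y τ A B = P1 * B - P2 * A - P3 * A * B` with `P1, P2, P3 > 0`.
If `A ≤ 0` the claim is immediate (`B ≥ Bs > 0`).  If `A > 0` then `As ≥ A > 0` and
`psi A B / (A B) = P1 / A - P2 / B - P3 ≥ P1 / As - P2 / Bs - P3 = psi As Bs / (As Bs) ≥ 0`. -/
lemma psi_nonneg_of_bounds (y τ A B As Bs : ℝ) (hy0 : 0 < y) (hy1 : y < 1) (hτ0 : 0 < τ)
    (hτ1 : τ ≤ 1) (hA : A ≤ As) (hB : Bs ≤ B) (hBs : 0 < Bs) (h : 0 ≤ psi y τ As Bs) :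
    0 ≤ psi y τ A B := by
  have hτy : τ * y < 1 := by nlinarith
  have hτy0 : 0 < τ * y := mul_pos hτ0 hy0
  have hy2 : y ^ 2 < 1 := by nlinarith
  have hτy2 : τ * y ^ 2 < 1 := by nlinarith [sq_nonneg y]
  have hτ2y2 : τ ^ 2 * y ^ 2 < 1 := by
    have e : τ ^ 2 * y ^ 2 = (τ * y) * (τ * y) := by ring
    rw [e]
    nlinarith
  obtain ⟨P1, hP1def⟩ : ∃ P1 : ℝ, P1 = (1 - τ * y ^ 2) * ((1 - y) * (1 - τ * y) ^ 2) := ⟨_, rfl⟩
  obtain ⟨P2, hP2def⟩ : ∃ P2 : ℝ, P2 = (1 - τ * y ^ 2) * ((1 + y) * (1 + τ * y) ^ 2) := ⟨_, rfl⟩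
  obtain ⟨P3, hP3def⟩ : ∃ P3 : ℝ, P3 = 2 * y * (1 + τ) * (1 - τ ^ 2 * y ^ 2) := ⟨_, rfl⟩
  have hP1 : 0 < P1 := by
    rw [hP1def]
    exact mul_pos (by linarith) (mul_pos (by linarith) (pow_pos (by linarith) 2))
  have hP2 : 0 < P2 := by
    rw [hP2def]
    exact mul_pos (by linarith) (mul_pos (by linarith) (pow_pos (by linarith) 2))
  have hP3 : 0 < P3 := by
    rw [hP3def]
    exact mul_pos (mul_pos (mul_pos (by norm_num) hy0) (by linarith)) (by linarith)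
  have hpsi : ∀ a b : ℝ, psi y τ a b = P1 * b - P2 * a - P3 * a * b := by
    intro a b
    rw [hP1def, hP2def, hP3def]
    unfold psi
    ring
  have hBpos : 0 < B := lt_of_lt_of_le hBs hB
  rcases le_or_gt A 0 with hA0 | hA0
  · rw [hpsi]
    have e1 : 0 < P1 * B := mul_pos hP1 hBpos
    have e2 : 0 ≤ P2 * (-A) := mul_nonneg hP2.le (by linarith)
    have e3 : 0 ≤ P3 * (-A) * B := mul_nonneg (mul_nonneg hP3.le (by linarith)) hBpos.le
    have e4 : P2 * (-A) = -(P2 * A) := by ring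
    have e5 : P3 * (-A) * B = -(P3 * A * B) := by ring
    linarith
  · have hAs : 0 < As := lt_of_lt_of_le hA0 hA
    have key : psi y τ A B * (As * Bs) - psi y τ As Bs * (A * B)
        = P1 * B * Bs * (As - A) + P2 * A * As * (B - Bs) := by
      rw [hpsi, hpsi]
      ring
    have e1 : 0 ≤ P1 * B * Bs * (As - A) :=
      mul_nonneg (mul_nonneg (mul_nonneg hP1.le hBpos.le) hBs.le) (by linarith)
    have e2 : 0 ≤ P2 * A * As * (B - Bs) :=
      mul_nonneg (mul_nonneg (mul_nonneg hP2.le hA0.le) hAs.le) (by linarith)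
    have e3 : 0 ≤ psi y τ As Bs * (A * B) := mul_nonneg h (mul_nonneg hA0.le hBpos.le)
    have e4 : 0 ≤ psi y τ A B * (As * Bs) := by linarith
    by_contra hneg
    have hneg' : psi y τ A B < 0 := not_le.mp hneg
    have e5 : psi y τ A B * (As * Bs) < 0 := mul_neg_of_neg_of_pos hneg' (mul_pos hAs hBs)
    linarith

end Vale.Agent.H51.Trunc
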