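import Mathlib
import Vale.Agent.H51.Trunc.GamNonneg
import Vale.Agent.H51.Trunc.ChordSum
import Vale.Agent.H51.Trunc.PsiAlg

/-! Row R6: the key lemma. -/

namespace Vale.Agent.H51.Trunc

/-- If `τ` is at most every other atom, then `psi ≥ 0` for the configuration `τ ::ₘ r`.
Proof: `k := log (y^2) / log τ ≥ 1` (as `y^2 = τ * r.prod ≤ τ < 1`).  By `sum_fa_ge`, `sum_fb_ge`
applied to `τ ::ₘ r` (product `y^2`): `sA ≤ (1 - y) - k * fa y τ`, `sB ≥ (1 + y) + k * fb y τ > 0`.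
Then `psi_nonneg_of_bounds`, `psi_star`, `Gam_nonneg` (with `x = y^2`, `log x = k log τ`). -/
theorem psi_nonneg (y : ℝ) (hy0 : 0 < y) (hy1 : y < 1) (τ : ℝ) (hτ0 : 0 < τ) (hτ1 : τ < 1)
    (r : Multiset ℝ) (hr : ∀ t ∈ r, τ ≤ t ∧ t ≤ 1) (hprod : τ * r.prod = y ^ 2) :
    0 ≤ psi y τ (sA y (τ ::ₘ r)) (sB y (τ ::ₘ r)) := by
  -- the atoms of `τ ::ₘ r` all lie in `[τ, 1]`
  have hs : ∀ t ∈ τ ::ₘ r, τ ≤ t ∧ t ≤ 1 := by
    intro t ht
    rcases Multiset.mem_cons.mp ht with h | h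
    · subst h; exact ⟨le_refl _, hτ1.le⟩
    · exact hr t h
  have hsprod : (τ ::ₘ r).prod = y ^ 2 := by
    rw [Multiset.prod_cons]; exact hprod
  -- `r.prod ≤ 1`
  have hrprod : r.prod ≤ 1 := by
    have h0 : ∀ t ∈ r, (0 : ℝ) ≤ t := fun t ht => le_trans hτ0.le (hr t ht).1
    have h1 : ∀ t ∈ r, t ≤ (1 : ℝ) := fun t ht => (hr t ht).2
    clear hprod hr hs hsprod
    induction r using Multiset.induction_on with
    | empty => simp
    | cons a s ih =>
      rw [Multiset.prod_cons]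
      have ha0 : 0 ≤ a := h0 a (Multiset.mem_cons_self a s)
      have ha1 : a ≤ 1 := h1 a (Multiset.mem_cons_self a s)
      have hs1 : s.prod ≤ 1 :=
        ih (fun t ht => h0 t (Multiset.mem_cons_of_mem ht))
          (fun t ht => h1 t (Multiset.mem_cons_of_mem ht))
      calc a * s.prod ≤ a * 1 := mul_le_mul_of_nonneg_left hs1 ha0
        _ = a := mul_one a
        _ ≤ 1 := ha1
  have hy2 : 0 < y ^ 2 := by positivity
  have hy2τ : y ^ 2 ≤ τ := by
    rw [← hprod]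
    calc τ * r.prod ≤ τ * 1 := mul_le_mul_of_nonneg_left hrprod hτ0.le
      _ = τ := mul_one τ
  have hlogτ : Real.log τ < 0 := Real.log_neg hτ0 hτ1
  have hlogy : Real.log (y ^ 2) ≤ Real.log τ := Real.log_le_log hy2 hy2τ
  -- the exponent `k`
  set k : ℝ := Real.log (y ^ 2) / Real.log τ with hk_def
  have hk : 1 ≤ k := by
    rw [hk_def, le_div_iff_of_neg hlogτ]
    linarith
  have hklog : Real.log (y ^ 2) = k * Real.log τ := by
    rw [hk_def, div_mul_cancel₀ _ hlogτ.ne]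
  -- chord bounds
  have hfa := sum_fa_ge y τ hy0 hy1 hτ0 hτ1 (τ ::ₘ r) hs
  have hfb := sum_fb_ge y τ hy0 hy1 hτ0 hτ1 (τ ::ₘ r) hs
  rw [hsprod] at hfa hfb
  have hA : sA y (τ ::ₘ r) ≤ (1 - y) - k * fa y τ := by
    unfold sA; linarith
  have hB : (1 + y) + k * fb y τ ≤ sB y (τ ::ₘ r) := by
    unfold sB; linarith
  have hτy : 0 < 1 - τ * y := by nlinarith
  have hfbpos : 0 < fb y τ := by
    unfold fb
    apply div_pos _ hτy
    apply mul_pos hy0; linarith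
  have hBs : 0 < (1 + y) + k * fb y τ := by
    have : 0 < k * fb y τ := mul_pos (by linarith) hfbpos
    linarith
  have hG : 0 ≤ Gam τ (y ^ 2) k := Gam_nonneg τ (y ^ 2) k hτ0 hτ1 hk hy2 hklog
  have hstar : 0 ≤ psi y τ ((1 - y) - k * fa y τ) ((1 + y) + k * fb y τ) := by
    rw [psi_star y τ k hy0 hy1 hτ0 hτ1.le]
    have : 0 ≤ 2 * y := by linarith
    exact mul_nonneg this hG
  exact psi_nonneg_of_bounds y τ _ _ _ _ hy0 hy1 hτ0 hτ1.le hA hB hBs hstar

end Vale.Agent.H51.Trunc
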