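import Mathlib
import Vale.Agent.H51.Trunc.Defs

/-! Row R7: the merging step (pure real algebra).

Symbols: `τ = t1 * t2`, `d = y (1 - t1)(1 - t2)`,
`LA = (1 + t1 y)(1 + t2 y)(A0 - fa t1 - fa t2)`, `RA = (1 + τ y)(1 + y)(A0 - fa τ)`,
`LB = (1 - t1 y)(1 - t2 y)(B0 + fb t1 + fb t2)`, `RB = (1 - τ y)(1 - y)(B0 + fb τ)`.
Identities: `RA - LA = d (A0 + 1 - y)`, `RB - LB = - d (B0 + 1 + y)`,
`(1 - τ² y²) ((A0 + 1 - y) RB - (B0 + 1 + y) RA) = psi y τ (A0 - fa τ) (B0 + fb τ)`,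
`RA RB - LA LB = d ((A0 + 1 - y) RB - (B0 + 1 + y) RA + d (A0 + 1 - y)(B0 + 1 + y))`,
and the left/right sides of the claim are `LA * LB` and `RA * RB`. -/

namespace Vale.Agent.H51.Trunc

lemma fa_nonneg (y t : ℝ) (hy0 : 0 < y) (ht0 : 0 < t) (ht1 : t ≤ 1) : 0 ≤ fa y t := by
  unfold fa
  apply div_nonneg
  · exact mul_nonneg hy0.le (by linarith)
  · have := mul_pos ht0 hy0
    linarith

lemma fb_nonneg (y t : ℝ) (hy0 : 0 < y) (hy1 : y < 1) (ht0 : 0 < t) (ht1 : t ≤ 1) :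
    0 ≤ fb y t := by
  unfold fb
  apply div_nonneg
  · exact mul_nonneg hy0.le (by linarith)
  · have : t * y < 1 := by nlinarith
    linarith

/-- defining equation of `fa` without division -/
lemma merge_fa_eq (y t : ℝ) (hy0 : 0 < y) (ht0 : 0 < t) :
    fa y t * (1 + t * y) = y * (1 - t) := by
  have h : 1 + t * y ≠ 0 := by
    have := mul_pos ht0 hy0
    linarith
  unfold fa
  exact div_mul_cancel₀ _ h

/-- defining equation of `fb` without division -/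
lemma merge_fb_eq (y t : ℝ) (hy0 : 0 < y) (hy1 : y < 1) (ht0 : 0 < t) (ht1 : t ≤ 1) :
    fb y t * (1 - t * y) = y * (1 - t) := by
  have h : 1 - t * y ≠ 0 := by
    have : t * y < 1 := by nlinarith
    linarith
  unfold fb
  exact div_mul_cancel₀ _ h

/-- `fa y` is subadditive along products -/
lemma fa_subadd (y t1 t2 : ℝ) (hy0 : 0 < y) (hy1 : y < 1) (h1 : 0 < t1) (h1' : t1 ≤ 1)
    (h2 : 0 < t2) (h2' : t2 ≤ 1) : fa y (t1 * t2) ≤ fa y t1 + fa y t2 := by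
  have e1 := merge_fa_eq y t1 hy0 h1
  have e2 := merge_fa_eq y t2 hy0 h2
  have e3 := merge_fa_eq y (t1 * t2) hy0 (mul_pos h1 h2)
  have p1 : 0 < 1 + t1 * y := by have := mul_pos h1 hy0; linarith
  have p2 : 0 < 1 + t2 * y := by have := mul_pos h2 hy0; linarith
  have p3 : 0 < 1 + t1 * t2 * y := by have := mul_pos (mul_pos h1 h2) hy0; linarith
  have hτ : t1 * t2 ≤ 1 := by nlinarith
  have hyy : y ^ 2 < 1 := by nlinarith
  have hτy : t1 * t2 * y ^ 2 < 1 := by nlinarith [mul_pos h1 h2]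
  have hid : (fa y t1 + fa y t2 - fa y (t1 * t2)) *
      ((1 + t1 * y) * (1 + t2 * y) * (1 + t1 * t2 * y)) =
      y * (1 - t1) * (1 - t2) * (1 - t1 * t2 * y ^ 2) := by
    linear_combination ((1 + t2 * y) * (1 + t1 * t2 * y)) * e1 +
      ((1 + t1 * y) * (1 + t1 * t2 * y)) * e2 - ((1 + t1 * y) * (1 + t2 * y)) * e3
  have hpos : 0 < (1 + t1 * y) * (1 + t2 * y) * (1 + t1 * t2 * y) :=
    mul_pos (mul_pos p1 p2) p3
  have hrhs : 0 ≤ y * (1 - t1) * (1 - t2) * (1 - t1 * t2 * y ^ 2) := by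
    apply mul_nonneg
    · apply mul_nonneg
      · exact mul_nonneg hy0.le (by linarith)
      · linarith
    · linarith
  have : 0 ≤ fa y t1 + fa y t2 - fa y (t1 * t2) := by
    by_contra hneg
    have hlt := mul_neg_of_neg_of_pos (not_le.mp hneg) hpos
    rw [hid] at hlt
    exact absurd hrhs (not_le.mpr hlt)
  linarith

/-- the merging identity, with the six fractions replaced by their defining equations -/
lemma merge_core (y t1 t2 A0 B0 a1 a2 a3 b1 b2 b3 : ℝ)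
    (e1 : a1 * (1 + t1 * y) = y * (1 - t1)) (e2 : a2 * (1 + t2 * y) = y * (1 - t2))
    (e3 : a3 * (1 + t1 * t2 * y) = y * (1 - t1 * t2))
    (f1 : b1 * (1 - t1 * y) = y * (1 - t1)) (f2 : b2 * (1 - t2 * y) = y * (1 - t2))
    (f3 : b3 * (1 - t1 * t2 * y) = y * (1 - t1 * t2)) :
    (1 - y ^ 2) * ((1 - y ^ 2 * (t1 * t2) ^ 2) * (A0 - a3) * (B0 + b3))
      - (1 - y ^ 2 * t1 ^ 2) * (1 - y ^ 2 * t2 ^ 2) * (A0 - a1 - a2) * (B0 + b1 + b2)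
      = y * (1 - t1) * (1 - t2) *
        ((A0 + 1 - y) * ((1 - t1 * t2 * y) * (1 - y) * (B0 + b3))
          - (B0 + 1 + y) * ((1 + t1 * t2 * y) * (1 + y) * (A0 - a3))
          + y * (1 - t1) * (1 - t2) * (A0 + 1 - y) * (B0 + 1 + y)) := by
  have hA : (1 + t1 * y) * (1 + t2 * y) * (A0 - a1 - a2) =
      (1 + t1 * t2 * y) * (1 + y) * (A0 - a3) - y * (1 - t1) * (1 - t2) * (A0 + 1 - y) := by
    linear_combination (-(1 + t2 * y)) * e1 + (-(1 + t1 * y)) * e2 + (1 + y) * e3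
  have hB : (1 - t1 * y) * (1 - t2 * y) * (B0 + b1 + b2) =
      (1 - t1 * t2 * y) * (1 - y) * (B0 + b3) + y * (1 - t1) * (1 - t2) * (B0 + 1 + y) := by
    linear_combination (1 - t2 * y) * f1 + (1 - t1 * y) * f2 - (1 - y) * f3
  have hL : (1 - y ^ 2 * t1 ^ 2) * (1 - y ^ 2 * t2 ^ 2) * (A0 - a1 - a2) * (B0 + b1 + b2) =
      ((1 + t1 * y) * (1 + t2 * y) * (A0 - a1 - a2)) *
        ((1 - t1 * y) * (1 - t2 * y) * (B0 + b1 + b2)) := by ring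
  rw [hL, hA, hB]
  ring

/-- the bracket of `merge_core` times `1 - τ² y²` is the functional `psi` -/
lemma merge_psi (y t1 t2 A0 B0 a3 b3 : ℝ)
    (e3 : a3 * (1 + t1 * t2 * y) = y * (1 - t1 * t2))
    (f3 : b3 * (1 - t1 * t2 * y) = y * (1 - t1 * t2)) :
    (1 - (t1 * t2) ^ 2 * y ^ 2) *
        ((A0 + 1 - y) * ((1 - t1 * t2 * y) * (1 - y) * (B0 + b3))
          - (B0 + 1 + y) * ((1 + t1 * t2 * y) * (1 + y) * (A0 - a3)))
      = psi y (t1 * t2) (A0 - a3) (B0 + b3) := by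
  unfold psi
  linear_combination ((1 - t1 * t2 * y) ^ 2 * (1 - y) * (B0 + b3)) * e3 +
    ((1 + t1 * t2 * y) ^ 2 * (1 + y) * (A0 - a3)) * f3

/-- common part of `merge_le` and `merge_lt`: the difference of the two sides -/
lemma merge_diff (y t1 t2 A0 B0 : ℝ) (hy0 : 0 < y) (hy1 : y < 1) (h1 : 0 < t1) (h1' : t1 ≤ 1)
    (h2 : 0 < t2) (h2' : t2 ≤ 1) (hA : 0 ≤ A0 - fa y (t1 * t2)) (hB : 0 ≤ B0)
    (hpsi : 0 ≤ psi y (t1 * t2) (A0 - fa y (t1 * t2)) (B0 + fb y (t1 * t2))) :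
    ∃ X : ℝ, 0 ≤ X ∧ 0 < (A0 + 1 - y) * (B0 + 1 + y) ∧
      (1 - y ^ 2) * ((1 - y ^ 2 * (t1 * t2) ^ 2) * (A0 - fa y (t1 * t2))
          * (B0 + fb y (t1 * t2)))
        - (1 - y ^ 2 * t1 ^ 2) * (1 - y ^ 2 * t2 ^ 2) * (A0 - fa y t1 - fa y t2)
          * (B0 + fb y t1 + fb y t2)
        = y * (1 - t1) * (1 - t2) *
          (X + y * (1 - t1) * (1 - t2) * ((A0 + 1 - y) * (B0 + 1 + y))) := by
  have hτ0 : 0 < t1 * t2 := mul_pos h1 h2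
  have hτ1 : t1 * t2 ≤ 1 := by nlinarith
  have hfa : 0 ≤ fa y (t1 * t2) := fa_nonneg y (t1 * t2) hy0 hτ0 hτ1
  have hα : 0 < A0 + 1 - y := by linarith
  have hβ : 0 < B0 + 1 + y := by linarith
  have hτy0 : 0 ≤ t1 * t2 * y := (mul_pos hτ0 hy0).le
  have hτy : t1 * t2 * y < 1 := by nlinarith
  have hden : 0 < 1 - (t1 * t2) ^ 2 * y ^ 2 := by
    have h := pow_lt_one₀ hτy0 hτy (two_ne_zero)
    have e : (t1 * t2) ^ 2 * y ^ 2 = (t1 * t2 * y) ^ 2 := by ring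
    rw [e]
    linarith
  have e1 := merge_fa_eq y t1 hy0 h1
  have e2 := merge_fa_eq y t2 hy0 h2
  have e3 := merge_fa_eq y (t1 * t2) hy0 hτ0
  have f1 := merge_fb_eq y t1 hy0 hy1 h1 h1'
  have f2 := merge_fb_eq y t2 hy0 hy1 h2 h2'
  have f3 := merge_fb_eq y (t1 * t2) hy0 hy1 hτ0 hτ1
  have hcore := merge_core y t1 t2 A0 B0 (fa y t1) (fa y t2) (fa y (t1 * t2))
    (fb y t1) (fb y t2) (fb y (t1 * t2)) e1 e2 e3 f1 f2 f3
  have hps := merge_psi y t1 t2 A0 B0 (fa y (t1 * t2)) (fb y (t1 * t2)) e3 f3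
  refine ⟨(A0 + 1 - y) * ((1 - t1 * t2 * y) * (1 - y) * (B0 + fb y (t1 * t2)))
          - (B0 + 1 + y) * ((1 + t1 * t2 * y) * (1 + y) * (A0 - fa y (t1 * t2))), ?_,
    mul_pos hα hβ, ?_⟩
  · by_contra hneg
    have hlt := mul_neg_of_pos_of_neg hden (not_le.mp hneg)
    rw [hps] at hlt
    exact absurd hpsi (not_le.mpr hlt)
  · rw [hcore]
    ring

lemma merge_le (y t1 t2 A0 B0 : ℝ) (hy0 : 0 < y) (hy1 : y < 1) (h1 : 0 < t1) (h1' : t1 ≤ 1)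
    (h2 : 0 < t2) (h2' : t2 ≤ 1) (hA : 0 ≤ A0 - fa y (t1 * t2)) (hB : 0 ≤ B0)
    (hpsi : 0 ≤ psi y (t1 * t2) (A0 - fa y (t1 * t2)) (B0 + fb y (t1 * t2))) :
    (1 - y ^ 2 * t1 ^ 2) * (1 - y ^ 2 * t2 ^ 2) * (A0 - fa y t1 - fa y t2)
        * (B0 + fb y t1 + fb y t2)
      ≤ (1 - y ^ 2) * ((1 - y ^ 2 * (t1 * t2) ^ 2) * (A0 - fa y (t1 * t2))
        * (B0 + fb y (t1 * t2))) := by
  obtain ⟨X, hX, hαβ, hdiff⟩ := merge_diff y t1 t2 A0 B0 hy0 hy1 h1 h1' h2 h2' hA hB hpsi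
  have hd : 0 ≤ y * (1 - t1) * (1 - t2) :=
    mul_nonneg (mul_nonneg hy0.le (by linarith)) (by linarith)
  have : 0 ≤ y * (1 - t1) * (1 - t2) *
      (X + y * (1 - t1) * (1 - t2) * ((A0 + 1 - y) * (B0 + 1 + y))) :=
    mul_nonneg hd (add_nonneg hX (mul_nonneg hd hαβ.le))
  linarith

lemma merge_lt (y t1 t2 A0 B0 : ℝ) (hy0 : 0 < y) (hy1 : y < 1) (h1 : 0 < t1) (h1' : t1 < 1)
    (h2 : 0 < t2) (h2' : t2 < 1) (hA : 0 ≤ A0 - fa y (t1 * t2)) (hB : 0 ≤ B0)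
    (hpsi : 0 ≤ psi y (t1 * t2) (A0 - fa y (t1 * t2)) (B0 + fb y (t1 * t2))) :
    (1 - y ^ 2 * t1 ^ 2) * (1 - y ^ 2 * t2 ^ 2) * (A0 - fa y t1 - fa y t2)
        * (B0 + fb y t1 + fb y t2)
      < (1 - y ^ 2) * ((1 - y ^ 2 * (t1 * t2) ^ 2) * (A0 - fa y (t1 * t2))
        * (B0 + fb y (t1 * t2))) := by
  obtain ⟨X, hX, hαβ, hdiff⟩ :=
    merge_diff y t1 t2 A0 B0 hy0 hy1 h1 h1'.le h2 h2'.le hA hB hpsi
  have hd : 0 < y * (1 - t1) * (1 - t2) :=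
    mul_pos (mul_pos hy0 (by linarith)) (by linarith)
  have : 0 < y * (1 - t1) * (1 - t2) *
      (X + y * (1 - t1) * (1 - t2) * ((A0 + 1 - y) * (B0 + 1 + y))) :=
    mul_pos hd (add_pos_of_nonneg_of_pos hX (mul_pos hd hαβ))
  linarith

end Vale.Agent.H51.Trunc
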