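import Mathlib
import Vale.Agent.H51.Trunc.Key
import Vale.Agent.H51.Trunc.Merge

/-! Row R8a: the merging step for multisets of atoms. -/

namespace Vale.Agent.H51.Trunc

/-- one atom: `F = (1 - y^2)^4` (`t = y^2`; `field_simp; ring`) -/
lemma sF_singleton (y : ℝ) (hy0 : 0 < y) (hy1 : y < 1) :
    sF y {y ^ 2} = (1 - y ^ 2) ^ 4 := by
  have h1 : (1 : ℝ) + y ^ 2 * y ≠ 0 := by positivity
  have h2 : (1 : ℝ) - y ^ 2 * y ≠ 0 := by
    have : y ^ 2 * y < 1 := by nlinarith [mul_pos hy0 hy0]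
    linarith
  have h3 : (1 : ℝ) + y ^ 3 ≠ 0 := by positivity
  have h4 : (1 : ℝ) - y ^ 3 ≠ 0 := by
    have : y ^ 3 < 1 := by nlinarith [mul_pos hy0 hy0]
    linarith
  unfold sF sC sA sB fa fb
  simp only [Multiset.map_singleton, Multiset.prod_singleton, Multiset.sum_singleton]
  field_simp
  ring

/-- `F` of a configuration with two distinguished atoms -/
lemma cm_two (y t1 t2 : ℝ) (r : Multiset ℝ) :
    sF y (t1 ::ₘ t2 ::ₘ r) = (r.map (fun t => 1 - y ^ 2 * t ^ 2)).prod *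
      ((1 - y ^ 2 * t1 ^ 2) * (1 - y ^ 2 * t2 ^ 2)
        * ((1 - y) - (r.map (fa y)).sum - fa y t1 - fa y t2)
        * ((1 + y) + (r.map (fb y)).sum + fb y t1 + fb y t2)) := by
  unfold sF sC sA sB
  simp only [Multiset.map_cons, Multiset.prod_cons, Multiset.sum_cons]
  ring

/-- `F` of a configuration with one distinguished atom -/
lemma cm_one (y τ : ℝ) (r : Multiset ℝ) :
    sF y (τ ::ₘ r) = (r.map (fun t => 1 - y ^ 2 * t ^ 2)).prod *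
      ((1 - y ^ 2 * τ ^ 2) * ((1 - y) - (r.map (fa y)).sum - fa y τ)
        * ((1 + y) + (r.map (fb y)).sum + fb y τ)) := by
  unfold sF sC sA sB
  simp only [Multiset.map_cons, Multiset.prod_cons, Multiset.sum_cons]
  ring

lemma cm_sA_one (y τ : ℝ) (r : Multiset ℝ) :
    sA y (τ ::ₘ r) = (1 - y) - (r.map (fa y)).sum - fa y τ := by
  unfold sA
  simp only [Multiset.map_cons, Multiset.sum_cons]
  ring

lemma cm_sB_one (y τ : ℝ) (r : Multiset ℝ) :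
    sB y (τ ::ₘ r) = (1 + y) + (r.map (fb y)).sum + fb y τ := by
  unfold sB
  simp only [Multiset.map_cons, Multiset.sum_cons]
  ring

lemma cm_sA_two (y t1 t2 : ℝ) (r : Multiset ℝ) :
    sA y (t1 ::ₘ t2 ::ₘ r) = (1 - y) - (r.map (fa y)).sum - fa y t1 - fa y t2 := by
  unfold sA
  simp only [Multiset.map_cons, Multiset.sum_cons]
  ring

/-- the common factor is positive -/
lemma cm_prod_pos (y : ℝ) (hy0 : 0 < y) (hy1 : y < 1) (r : Multiset ℝ)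
    (hr : ∀ t ∈ r, 0 < t ∧ t ≤ 1) : 0 < (r.map (fun t => 1 - y ^ 2 * t ^ 2)).prod := by
  induction r using Multiset.induction_on with
  | empty => simp
  | cons a r ih =>
    rw [Multiset.map_cons, Multiset.prod_cons]
    have ha := hr a (Multiset.mem_cons_self a r)
    have hy2 : y ^ 2 < 1 := by nlinarith
    have ha2 : a ^ 2 ≤ 1 := by nlinarith [ha.1, ha.2]
    have hpos : 0 < 1 - y ^ 2 * a ^ 2 := by nlinarith [sq_nonneg y, sq_nonneg a]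
    exact mul_pos hpos (ih fun t ht => hr t (Multiset.mem_cons_of_mem ht))

/-- the sum of the `fb` is nonnegative -/
lemma cm_sum_fb_nonneg (y : ℝ) (hy0 : 0 < y) (hy1 : y < 1) (r : Multiset ℝ)
    (hr : ∀ t ∈ r, 0 < t ∧ t ≤ 1) : 0 ≤ (r.map (fb y)).sum := by
  apply Multiset.sum_nonneg
  intro x hx
  obtain ⟨t, ht, rfl⟩ := Multiset.mem_map.mp hx
  exact fb_nonneg y t hy0 hy1 (hr t ht).1 (hr t ht).2

/-- the hypotheses of `merge_le` / `merge_lt` for the configuration `t1 ::ₘ t2 ::ₘ r` -/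
lemma cm_hyps (y : ℝ) (hy0 : 0 < y) (hy1 : y < 1) (t1 t2 : ℝ) (r : Multiset ℝ)
    (h1 : 0 < t1 ∧ t1 ≤ 1) (h2 : 0 < t2 ∧ t2 ≤ 1) (hr : ∀ t ∈ r, t1 ≤ t ∧ t ≤ 1)
    (hprod : t1 * t2 * r.prod = y ^ 2) (hA : 0 < sA y (t1 ::ₘ t2 ::ₘ r)) :
    0 ≤ ((1 - y) - (r.map (fa y)).sum) - fa y (t1 * t2) ∧ 0 ≤ (1 + y) + (r.map (fb y)).sum ∧
      0 ≤ psi y (t1 * t2) (((1 - y) - (r.map (fa y)).sum) - fa y (t1 * t2))
        (((1 + y) + (r.map (fb y)).sum) + fb y (t1 * t2)) := by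
  have hr0 : ∀ t ∈ r, 0 < t ∧ t ≤ 1 := fun t ht => ⟨lt_of_lt_of_le h1.1 (hr t ht).1, (hr t ht).2⟩
  have hτ0 : 0 < t1 * t2 := mul_pos h1.1 h2.1
  have hτle : t1 * t2 ≤ t1 := by nlinarith [h1.1, h2.2]
  have hτ1 : t1 * t2 < 1 := by
    by_contra hcon
    push Not at hcon
    have ht1 : t1 = 1 := le_antisymm h1.2 (le_trans hcon hτle)
    have hrp : r.prod = 1 :=
      Multiset.prod_eq_one fun t ht => le_antisymm (hr t ht).2 (by rw [← ht1]; exact (hr t ht).1)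
    have ht2 : t2 = 1 := by
      rw [ht1, one_mul] at hcon
      exact le_antisymm h2.2 hcon
    rw [ht1, ht2, hrp] at hprod
    nlinarith
  have hsub := fa_subadd y t1 t2 hy0 hy1 h1.1 h1.2 h2.1 h2.2
  rw [cm_sA_two] at hA
  have hpsi := psi_nonneg y hy0 hy1 (t1 * t2) hτ0 hτ1 r
    (fun t ht => ⟨le_trans hτle (hr t ht).1, (hr t ht).2⟩) hprod
  rw [cm_sA_one, cm_sB_one] at hpsi
  refine ⟨by linarith, ?_, hpsi⟩
  have := cm_sum_fb_nonneg y hy0 hy1 r hr0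
  linarith

/-- the merging step for multisets: `s = t1 ::ₘ t2 ::ₘ r`, `t1 ≤` every atom.
If `sA y s ≤ 0` then `sF y s ≤ 0` and the right side is `≥ 0`?  NOT needed here: this lemma
assumes `0 < sA y s`; then `sA y ((t1*t2) ::ₘ r) ≥ sA y s > 0` by `fa_subadd`, and
`merge_le` with `A0 = (1 - y) - (r.map (fa y)).sum`, `B0 = (1 + y) + (r.map (fb y)).sum`
and `psi_nonneg` (atom `τ = t1 * t2 ≤ t1 ≤` every atom of `r`; `τ < 1` because `τ ≤ y^2`... no: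
`y^2 = τ * r.prod ≤ τ`, and `τ = 1` would force `y^2 = r.prod`, `t1 = t2 = 1`, all atoms `1`,
`y = 1`). -/
lemma sF_merge_le (y : ℝ) (hy0 : 0 < y) (hy1 : y < 1) (t1 t2 : ℝ) (r : Multiset ℝ)
    (h1 : 0 < t1 ∧ t1 ≤ 1) (h2 : 0 < t2 ∧ t2 ≤ 1) (hr : ∀ t ∈ r, t1 ≤ t ∧ t ≤ 1)
    (hprod : t1 * t2 * r.prod = y ^ 2) (hA : 0 < sA y (t1 ::ₘ t2 ::ₘ r)) :
    sF y (t1 ::ₘ t2 ::ₘ r) ≤ (1 - y ^ 2) * sF y ((t1 * t2) ::ₘ r) := by
  have hr0 : ∀ t ∈ r, 0 < t ∧ t ≤ 1 := fun t ht => ⟨lt_of_lt_of_le h1.1 (hr t ht).1, (hr t ht).2⟩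
  obtain ⟨hA0, hB0, hpsi⟩ := cm_hyps y hy0 hy1 t1 t2 r h1 h2 hr hprod hA
  have key := merge_le y t1 t2 ((1 - y) - (r.map (fa y)).sum) ((1 + y) + (r.map (fb y)).sum)
    hy0 hy1 h1.1 h1.2 h2.1 h2.2 hA0 hB0 hpsi
  have hP := cm_prod_pos y hy0 hy1 r hr0
  rw [cm_two, cm_one]
  calc (r.map (fun t => 1 - y ^ 2 * t ^ 2)).prod *
        ((1 - y ^ 2 * t1 ^ 2) * (1 - y ^ 2 * t2 ^ 2)
          * ((1 - y) - (r.map (fa y)).sum - fa y t1 - fa y t2)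
          * ((1 + y) + (r.map (fb y)).sum + fb y t1 + fb y t2))
      ≤ (r.map (fun t => 1 - y ^ 2 * t ^ 2)).prod *
        ((1 - y ^ 2) * ((1 - y ^ 2 * (t1 * t2) ^ 2)
          * ((1 - y) - (r.map (fa y)).sum - fa y (t1 * t2))
          * ((1 + y) + (r.map (fb y)).sum + fb y (t1 * t2)))) :=
        mul_le_mul_of_nonneg_left key hP.le
    _ = (1 - y ^ 2) * ((r.map (fun t => 1 - y ^ 2 * t ^ 2)).prod *
        ((1 - y ^ 2 * (t1 * t2) ^ 2) * ((1 - y) - (r.map (fa y)).sum - fa y (t1 * t2))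
          * ((1 + y) + (r.map (fb y)).sum + fb y (t1 * t2)))) := by ring

lemma sF_merge_lt (y : ℝ) (hy0 : 0 < y) (hy1 : y < 1) (t1 t2 : ℝ) (r : Multiset ℝ)
    (h1 : 0 < t1 ∧ t1 < 1) (h2 : 0 < t2 ∧ t2 < 1) (hr : ∀ t ∈ r, t1 ≤ t ∧ t ≤ 1)
    (hprod : t1 * t2 * r.prod = y ^ 2) (hA : 0 < sA y (t1 ::ₘ t2 ::ₘ r)) :
    sF y (t1 ::ₘ t2 ::ₘ r) < (1 - y ^ 2) * sF y ((t1 * t2) ::ₘ r) := by
  have hr0 : ∀ t ∈ r, 0 < t ∧ t ≤ 1 := fun t ht => ⟨lt_of_lt_of_le h1.1 (hr t ht).1, (hr t ht).2⟩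
  obtain ⟨hA0, hB0, hpsi⟩ := cm_hyps y hy0 hy1 t1 t2 r ⟨h1.1, h1.2.le⟩ ⟨h2.1, h2.2.le⟩ hr hprod hA
  have key := merge_lt y t1 t2 ((1 - y) - (r.map (fa y)).sum) ((1 + y) + (r.map (fb y)).sum)
    hy0 hy1 h1.1 h1.2 h2.1 h2.2 hA0 hB0 hpsi
  have hP := cm_prod_pos y hy0 hy1 r hr0
  rw [cm_two, cm_one]
  calc (r.map (fun t => 1 - y ^ 2 * t ^ 2)).prod *
        ((1 - y ^ 2 * t1 ^ 2) * (1 - y ^ 2 * t2 ^ 2)
          * ((1 - y) - (r.map (fa y)).sum - fa y t1 - fa y t2)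
          * ((1 + y) + (r.map (fb y)).sum + fb y t1 + fb y t2))
      < (r.map (fun t => 1 - y ^ 2 * t ^ 2)).prod *
        ((1 - y ^ 2) * ((1 - y ^ 2 * (t1 * t2) ^ 2)
          * ((1 - y) - (r.map (fa y)).sum - fa y (t1 * t2))
          * ((1 + y) + (r.map (fb y)).sum + fb y (t1 * t2)))) :=
        mul_lt_mul_of_pos_left key hP
    _ = (1 - y ^ 2) * ((r.map (fun t => 1 - y ^ 2 * t ^ 2)).prod *
        ((1 - y ^ 2 * (t1 * t2) ^ 2) * ((1 - y) - (r.map (fa y)).sum - fa y (t1 * t2))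
          * ((1 + y) + (r.map (fb y)).sum + fb y (t1 * t2)))) := by ring

end Vale.Agent.H51.Trunc
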