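import Mathlib
import Vale.Agent.H51.Trunc.CoreMerge

/-! Row R8b: the core inequality, by induction on the number of atoms. -/

namespace Vale.Agent.H51.Trunc

lemma core_sC_nonneg (y : ℝ) (hy0 : 0 < y) (hy1 : y < 1) (s : Multiset ℝ)
    (hs : ∀ t ∈ s, 0 < t ∧ t ≤ 1) : 0 ≤ sC y s := by
  unfold sC
  apply Multiset.prod_nonneg
  intro a ha
  obtain ⟨t, ht, rfl⟩ := Multiset.mem_map.1 ha
  obtain ⟨h0, h1⟩ := hs t ht
  have hy2 : y ^ 2 ≤ 1 := by nlinarith
  have ht2 : t ^ 2 ≤ 1 := by nlinarith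
  nlinarith [sq_nonneg y, sq_nonneg t]

lemma core_sB_nonneg (y : ℝ) (hy0 : 0 < y) (hy1 : y < 1) (s : Multiset ℝ)
    (hs : ∀ t ∈ s, 0 < t ∧ t ≤ 1) : 0 ≤ sB y s := by
  unfold sB
  have h : 0 ≤ (s.map (fb y)).sum := by
    apply Multiset.sum_nonneg
    intro a ha
    obtain ⟨t, ht, rfl⟩ := Multiset.mem_map.1 ha
    obtain ⟨h0, h1⟩ := hs t ht
    unfold fb
    apply div_nonneg
    · exact mul_nonneg hy0.le (by linarith)
    · nlinarith
  linarith

lemma core_split (s : Multiset ℝ) (n : ℕ) (hcard : Multiset.card s = n + 2) :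
    ∃ (t1 t2 : ℝ) (r : Multiset ℝ), s = t1 ::ₘ t2 ::ₘ r ∧ Multiset.card r = n ∧
      ∀ t ∈ s, t1 ≤ t := by
  have hne : s ≠ 0 := by
    intro h
    rw [h] at hcard
    simp at hcard
  obtain ⟨t1, ht1, hmin⟩ := Multiset.exists_min_image id hne
  obtain ⟨s', rfl⟩ := Multiset.exists_cons_of_mem ht1
  have hcard' : Multiset.card s' = n + 1 := by
    rw [Multiset.card_cons] at hcard
    omega
  have hne' : s' ≠ 0 := by
    intro h
    rw [h] at hcard'
    simp at hcard'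
  obtain ⟨t2, ht2⟩ := Multiset.exists_mem_of_ne_zero hne'
  obtain ⟨r, rfl⟩ := Multiset.exists_cons_of_mem ht2
  refine ⟨t1, t2, r, rfl, ?_, hmin⟩
  rw [Multiset.card_cons] at hcard'
  omega

lemma core_le_aux (y : ℝ) (hy0 : 0 < y) (hy1 : y < 1) : ∀ n : ℕ, ∀ s : Multiset ℝ,
    Multiset.card s = n → (∀ t ∈ s, 0 < t ∧ t ≤ 1) → s.prod = y ^ 2 →
    sF y s ≤ (1 - y ^ 2) ^ (n + 3) := by
  have hy2 : y ^ 2 < 1 := by nlinarith
  intro n
  induction n with
  | zero =>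
    intro s hcard hs hprod
    rw [Multiset.card_eq_zero] at hcard
    rw [hcard, Multiset.prod_zero] at hprod
    linarith
  | succ n ih =>
    intro s hcard hs hprod
    rcases n with _ | n
    · obtain ⟨t, rfl⟩ := Multiset.card_eq_one.1 hcard
      rw [Multiset.prod_singleton] at hprod
      subst hprod
      rw [sF_singleton y hy0 hy1]
    · obtain ⟨t1, t2, r, rfl, hcr, hmin⟩ := core_split s n hcard
      have h1 := hs t1 (by simp)
      have h2 := hs t2 (by simp)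
      have hr : ∀ t ∈ r, t1 ≤ t ∧ t ≤ 1 := fun t ht =>
        ⟨hmin t (by simp [ht]), (hs t (by simp [ht])).2⟩
      have hprod' : t1 * t2 * r.prod = y ^ 2 := by
        rw [← hprod, Multiset.prod_cons, Multiset.prod_cons, mul_assoc]
      have hpos : 0 ≤ 1 - y ^ 2 := by linarith
      by_cases hA : sA y (t1 ::ₘ t2 ::ₘ r) ≤ 0
      · have hC := core_sC_nonneg y hy0 hy1 _ hs
        have hB := core_sB_nonneg y hy0 hy1 _ hs
        have h0 : sF y (t1 ::ₘ t2 ::ₘ r) ≤ 0 := by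
          unfold sF
          exact mul_nonpos_of_nonpos_of_nonneg (mul_nonpos_of_nonneg_of_nonpos hC hA) hB
        exact h0.trans (pow_nonneg hpos _)
      · push Not at hA
        have hm := sF_merge_le y hy0 hy1 t1 t2 r h1 h2 hr hprod' hA
        have hs'' : ∀ t ∈ (t1 * t2) ::ₘ r, 0 < t ∧ t ≤ 1 := by
          intro t ht
          rw [Multiset.mem_cons] at ht
          rcases ht with rfl | ht
          · exact ⟨mul_pos h1.1 h2.1, by nlinarith [h1.1, h1.2, h2.1, h2.2]⟩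
          · exact hs t (by simp [ht])
        have hih := ih ((t1 * t2) ::ₘ r) (by rw [Multiset.card_cons, hcr]) hs''
          (by rw [Multiset.prod_cons]; exact hprod')
        calc sF y (t1 ::ₘ t2 ::ₘ r) ≤ (1 - y ^ 2) * sF y ((t1 * t2) ::ₘ r) := hm
          _ ≤ (1 - y ^ 2) * (1 - y ^ 2) ^ (n + 1 + 3) := mul_le_mul_of_nonneg_left hih hpos
          _ = (1 - y ^ 2) ^ (n + 1 + 1 + 3) := by ring

/-- Induction on `card s` (strong).  `card = 0` is impossible (`prod = 1 ≠ y^2`); `card = 1`: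
`sF_singleton`; `card ≥ 2`: choose a minimal atom `t1` and another atom `t2`; if `sA y s ≤ 0`
then `sF y s ≤ 0 ≤ rhs` (`sC > 0`, `sB > 0`); otherwise `sF_merge_le` and the induction
hypothesis for `(t1 * t2) ::ₘ r`. -/
theorem sF_le (y : ℝ) (hy0 : 0 < y) (hy1 : y < 1) (s : Multiset ℝ)
    (hs : ∀ t ∈ s, 0 < t ∧ t ≤ 1) (hprod : s.prod = y ^ 2) :
    sF y s ≤ (1 - y ^ 2) ^ (Multiset.card s + 3) := by
  exact core_le_aux y hy0 hy1 (Multiset.card s) s rfl hs hprod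

/-- strict version: first step `sF_merge_lt`, then `sF_le`. -/
theorem sF_lt (y : ℝ) (hy0 : 0 < y) (hy1 : y < 1) (s : Multiset ℝ)
    (hs : ∀ t ∈ s, 0 < t ∧ t < 1) (hprod : s.prod = y ^ 2) (hcard : 2 ≤ Multiset.card s) :
    sF y s < (1 - y ^ 2) ^ (Multiset.card s + 3) := by
  have hy2 : y ^ 2 < 1 := by nlinarith
  have hpos : 0 < 1 - y ^ 2 := by linarith
  obtain ⟨n, hn⟩ : ∃ n, Multiset.card s = n + 2 := ⟨Multiset.card s - 2, by omega⟩
  obtain ⟨t1, t2, r, rfl, hcr, hmin⟩ := core_split s n hn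
  have h1 := hs t1 (by simp)
  have h2 := hs t2 (by simp)
  have hs' : ∀ t ∈ t1 ::ₘ t2 ::ₘ r, 0 < t ∧ t ≤ 1 := fun t ht => ⟨(hs t ht).1, (hs t ht).2.le⟩
  have hr : ∀ t ∈ r, t1 ≤ t ∧ t ≤ 1 := fun t ht =>
    ⟨hmin t (by simp [ht]), (hs t (by simp [ht])).2.le⟩
  have hprod' : t1 * t2 * r.prod = y ^ 2 := by
    rw [← hprod, Multiset.prod_cons, Multiset.prod_cons, mul_assoc]
  by_cases hA : sA y (t1 ::ₘ t2 ::ₘ r) ≤ 0
  · have hC := core_sC_nonneg y hy0 hy1 _ hs'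
    have hB := core_sB_nonneg y hy0 hy1 _ hs'
    have h0 : sF y (t1 ::ₘ t2 ::ₘ r) ≤ 0 := by
      unfold sF
      exact mul_nonpos_of_nonpos_of_nonneg (mul_nonpos_of_nonneg_of_nonpos hC hA) hB
    exact lt_of_le_of_lt h0 (pow_pos hpos _)
  · push Not at hA
    have hm := sF_merge_lt y hy0 hy1 t1 t2 r h1 h2 hr hprod' hA
    have hs'' : ∀ t ∈ (t1 * t2) ::ₘ r, 0 < t ∧ t ≤ 1 := by
      intro t ht
      rw [Multiset.mem_cons] at ht
      rcases ht with rfl | ht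
      · exact ⟨mul_pos h1.1 h2.1, by nlinarith [h1.1, h1.2, h2.1, h2.2]⟩
      · exact hs' t (by simp [ht])
    have hle := sF_le y hy0 hy1 ((t1 * t2) ::ₘ r) hs''
      (by rw [Multiset.prod_cons]; exact hprod')
    calc sF y (t1 ::ₘ t2 ::ₘ r) < (1 - y ^ 2) * sF y ((t1 * t2) ::ₘ r) := hm
      _ ≤ (1 - y ^ 2) * (1 - y ^ 2) ^ (Multiset.card ((t1 * t2) ::ₘ r) + 3) :=
          mul_le_mul_of_nonneg_left hle hpos.le
      _ = (1 - y ^ 2) ^ (Multiset.card (t1 ::ₘ t2 ::ₘ r) + 3) := by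
          rw [Multiset.card_cons, Multiset.card_cons, Multiset.card_cons]
          ring

end Vale.Agent.H51.Trunc
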