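import Mathlib
import Vale.Agent.H68.IsoRatio
import Vale.Agent.H51.Trunc.Det

/-! Row R10b: entries of `truncN`. -/

namespace Vale.Agent.H51.Trunc

open Matrix Vale.Agent.H68

variable {n : ℕ}

lemma dE_truncN_apply (t : Fin n → ℝ) (a b : Fin (n + 1)) :
    truncN t a b = ((if a = b then 1 else 0) + 1)
      - (∏ i, t i) * (∑ k, truncT t a k * truncT t b k
          + (∑ k, truncT t a k) * (∑ l, truncT t b l)) := by
  unfold truncN
  rw [Matrix.sub_apply, Matrix.smul_apply, simplex_R_apply, smul_eq_mul, Matrix.add_apply,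
    Matrix.one_apply, Matrix.mul_apply, Fin.sum_univ_one]
  simp [colOne, rowOne]

lemma dE_rowsum_zero (t : Fin n → ℝ) : ∑ k, truncT t 0 k = 1 + ∑ i, (1 - t i) := by
  rw [Fin.sum_univ_succ]
  simp

lemma dE_rowsum_succ (t : Fin n → ℝ) (i : Fin n) : ∑ k, truncT t i.succ k = t i := by
  rw [Fin.sum_univ_succ]
  simp

lemma dE_dot_zero_zero (t : Fin n → ℝ) :
    ∑ k, truncT t 0 k * truncT t 0 k = 1 + ∑ i, (1 - t i) ^ 2 := by
  rw [Fin.sum_univ_succ]
  simp [sq]

lemma dE_dot_zero_succ (t : Fin n → ℝ) (j : Fin n) :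
    ∑ k, truncT t 0 k * truncT t j.succ k = t j * (1 - t j) := by
  rw [Fin.sum_univ_succ]
  simp [mul_comm]

lemma dE_dot_succ_succ (t : Fin n → ℝ) (i j : Fin n) :
    ∑ k, truncT t i.succ k * truncT t j.succ k = if i = j then t i ^ 2 else 0 := by
  rw [Fin.sum_univ_succ]
  by_cases h : i = j
  · subst h
    simp [sq]
  · simp [h]

lemma dE_colsum (t : Fin n → ℝ) (b : Fin (n + 1)) : ∑ a, truncT t a b = 1 := by
  rw [Fin.sum_univ_succ]
  refine Fin.cases ?_ (fun j => ?_) b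
  · simp
  · simp

/-- entries of `truncN` (R10b).  `s = ∑ (1 - t i)`. -/
lemma truncN_zero_zero (t : Fin n → ℝ) :
    truncN t 0 0 = 2 - (∏ i, t i) * (1 + ∑ i, (1 - t i) ^ 2 + (1 + ∑ i, (1 - t i)) ^ 2) := by
  rw [dE_truncN_apply, dE_rowsum_zero, dE_dot_zero_zero]
  simp
  ring

lemma truncN_zero_succ (t : Fin n → ℝ) (j : Fin n) :
    truncN t 0 j.succ = 1 - (∏ i, t i) * (t j * (1 - t j) + t j * (1 + ∑ i, (1 - t i))) := by
  rw [dE_truncN_apply, dE_rowsum_zero, dE_rowsum_succ, dE_dot_zero_succ]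
  have h : (0 : Fin (n + 1)) ≠ j.succ := (Fin.succ_ne_zero j).symm
  rw [if_neg h]
  ring

lemma truncN_succ_zero (t : Fin n → ℝ) (j : Fin n) :
    truncN t j.succ 0 = 1 - (∏ i, t i) * (t j * (1 - t j) + t j * (1 + ∑ i, (1 - t i))) := by
  rw [dE_truncN_apply, dE_rowsum_zero, dE_rowsum_succ]
  have h : j.succ ≠ (0 : Fin (n + 1)) := Fin.succ_ne_zero j
  have h2 : ∑ k, truncT t j.succ k * truncT t 0 k = t j * (1 - t j) := by
    rw [← dE_dot_zero_succ]
    exact Finset.sum_congr rfl (fun k _ => mul_comm _ _)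
  rw [if_neg h, h2]
  ring

lemma truncN_succ_succ (t : Fin n → ℝ) (i j : Fin n) :
    truncN t i.succ j.succ
      = (if i = j then 1 - (∏ l, t l) * t i ^ 2 else 0) + (1 - (∏ l, t l) * (t i * t j)) := by
  rw [dE_truncN_apply, dE_rowsum_succ, dE_rowsum_succ, dE_dot_succ_succ]
  by_cases h : i = j
  · subst h
    simp
    ring
  · have h' : i.succ ≠ j.succ := fun e => h (Fin.succ_injective _ e)
    rw [if_neg h, if_neg h', if_neg h]
    ring

/-- R10b.  sum of all entries of `truncN`, in the form used by `isoRatio_general`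
(`W 0 k = 1` for a lifted vertex matrix). From the four entry lemmas, or directly:
`1ᵀ T = 1ᵀ`, so `1ᵀ T (1 + J) Tᵀ 1 = (n+1) + (n+1)^2`. -/
lemma truncN_sum (t : Fin n → ℝ) (W : Matrix (Fin (n + 1)) (Fin (n + 1)) ℝ)
    (hW0 : ∀ k, W 0 k = 1) :
    (W * truncN t * W.transpose) 0 0 = ((n : ℝ) + 1) * ((n : ℝ) + 2) * (1 - ∏ i, t i) := by
  have hN : ∀ a b, truncN t a b = ((if a = b then 1 else 0) + 1)
      - (∏ i, t i) * (∑ k, truncT t a k * truncT t b k
          + (∑ k, truncT t a k) * (∑ l, truncT t b l)) := dE_truncN_apply t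
  have h1 : (W * truncN t * W.transpose) 0 0 = ∑ b, ∑ a, truncN t a b := by
    rw [Matrix.mul_apply]
    refine Finset.sum_congr rfl (fun b _ => ?_)
    rw [Matrix.transpose_apply, hW0, mul_one, Matrix.mul_apply]
    refine Finset.sum_congr rfl (fun a _ => ?_)
    rw [hW0, one_mul]
  have h2 : ∑ b : Fin (n + 1), ∑ a : Fin (n + 1), ((if a = b then (1 : ℝ) else 0) + 1)
      = ((n : ℝ) + 1) * ((n : ℝ) + 2) := by
    simp [Finset.sum_add_distrib]
    ring
  have h3 : ∑ b : Fin (n + 1), ∑ a : Fin (n + 1), ∑ k, truncT t a k * truncT t b k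
      = (n : ℝ) + 1 := by
    have e : ∀ b : Fin (n + 1), ∑ a : Fin (n + 1), ∑ k, truncT t a k * truncT t b k
        = ∑ k, truncT t b k := by
      intro b
      rw [Finset.sum_comm]
      refine Finset.sum_congr rfl (fun k _ => ?_)
      rw [← Finset.sum_mul, dE_colsum, one_mul]
    have e1 : ∑ b : Fin (n + 1), ∑ k : Fin (n + 1), truncT t b k
        = ∑ k : Fin (n + 1), ∑ b : Fin (n + 1), truncT t b k := Finset.sum_comm
    rw [Finset.sum_congr rfl (fun b _ => e b), e1]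
    rw [Finset.sum_congr rfl (fun k _ => dE_colsum t k)]
    simp
  have h4 : ∑ b : Fin (n + 1), ∑ a : Fin (n + 1),
      (∑ k, truncT t a k) * (∑ l, truncT t b l) = ((n : ℝ) + 1) ^ 2 := by
    have e0 : ∑ a : Fin (n + 1), ∑ k, truncT t a k = (n : ℝ) + 1 := by
      have e1 : ∑ b : Fin (n + 1), ∑ k : Fin (n + 1), truncT t b k
          = ∑ k : Fin (n + 1), ∑ b : Fin (n + 1), truncT t b k := Finset.sum_comm
      rw [e1, Finset.sum_congr rfl (fun k _ => dE_colsum t k)]
      simp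
    have e : ∀ b : Fin (n + 1), ∑ a : Fin (n + 1), (∑ k, truncT t a k) * (∑ l, truncT t b l)
        = ((n : ℝ) + 1) * (∑ l, truncT t b l) := by
      intro b
      rw [← Finset.sum_mul, e0]
    rw [Finset.sum_congr rfl (fun b _ => e b), ← Finset.mul_sum, e0]
    ring
  have h5 : ∑ b : Fin (n + 1), ∑ a : Fin (n + 1), truncN t a b
      = (∑ b : Fin (n + 1), ∑ a : Fin (n + 1), ((if a = b then (1 : ℝ) else 0) + 1))
        - (∏ i, t i) * ((∑ b : Fin (n + 1), ∑ a : Fin (n + 1), ∑ k, truncT t a k * truncT t b k)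
          + ∑ b : Fin (n + 1), ∑ a : Fin (n + 1), (∑ k, truncT t a k) * (∑ l, truncT t b l)) := by
    simp only [hN, Finset.sum_sub_distrib, ← Finset.mul_sum, Finset.sum_add_distrib]
  rw [h1, h5, h2, h3, h4]
  ring

end Vale.Agent.H51.Trunc
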