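import Mathlib
import Vale.Agent.H68.IsoRatio
import Vale.Agent.H51.Trunc.DetEntries

/-! Row R10c: `C N Cᵀ` is diagonal plus rank two. -/

namespace Vale.Agent.H51.Trunc

open Matrix Vale.Agent.H68

variable {n : ℕ}

lemma dc_C_mul (M : Matrix (Fin (n + 1)) (Fin (n + 1)) ℝ) (a l : Fin (n + 1)) :
    (truncC n * M) a l = if a = 0 then ∑ k, M k l else M a l := by
  rw [Matrix.mul_apply]
  by_cases ha : a = 0
  · simp [truncC, ha]
  · simp [truncC, ha]

lemma dc_mul_Ct (M : Matrix (Fin (n + 1)) (Fin (n + 1)) ℝ) (k b : Fin (n + 1)) :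
    (M * (truncC n).transpose) k b = if b = 0 then ∑ l, M k l else M k b := by
  rw [Matrix.mul_apply]
  by_cases hb : b = 0
  · simp [truncC, hb]
  · simp [truncC, hb]

lemma dc_sum_one_sub (t : Fin n → ℝ) : ∑ i, (1 - t i) = (n : ℝ) - ∑ i, t i := by
  simp [Finset.sum_sub_distrib]

lemma dc_col_sum (t : Fin n → ℝ) (j : Fin n) :
    ∑ k, truncN t k j.succ = ((n : ℝ) + 2) * (1 - (∏ i, t i) * t j) := by
  rw [Fin.sum_univ_succ, truncN_zero_succ]
  simp only [truncN_succ_succ]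
  rw [Finset.sum_add_distrib, Finset.sum_ite_eq' Finset.univ j, if_pos (Finset.mem_univ j),
    dc_sum_one_sub]
  have h1 : ∑ x, (1 - (∏ i, t i) * (t x * t j))
      = (n : ℝ) - (∏ i, t i) * ((∑ x, t x) * t j) := by
    rw [Finset.sum_sub_distrib, ← Finset.mul_sum, ← Finset.sum_mul]
    simp
  rw [h1]
  ring

lemma dc_row_sum (t : Fin n → ℝ) (i : Fin n) :
    ∑ l, truncN t i.succ l = ((n : ℝ) + 2) * (1 - (∏ l, t l) * t i) := by
  rw [Fin.sum_univ_succ, truncN_succ_zero]
  simp only [truncN_succ_succ]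
  rw [Finset.sum_add_distrib, Finset.sum_ite_eq Finset.univ i, if_pos (Finset.mem_univ i),
    dc_sum_one_sub]
  have h1 : ∑ x, (1 - (∏ l, t l) * (t i * t x))
      = (n : ℝ) - (∏ l, t l) * (t i * ∑ x, t x) := by
    rw [Finset.sum_sub_distrib, ← Finset.mul_sum, ← Finset.mul_sum]
    simp
  rw [h1]
  ring

/-- R10c.  `C N Cᵀ = diag(D) + u1 u1ᵀ - p u2 u2ᵀ` entrywise:
entry `(0,0)` is `(n+1)(n+2)(1-p)`, entry `(0,j+1)` is `(n+2)(1 - p t j)`, entry `(i+1,j+1)` is
`δ_ij (1 - p t_i^2) + 1 - p t_i t_j` (use the entry lemmas for `truncN`). -/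
lemma truncC_mul_truncN (t : Fin n → ℝ) (a b : Fin (n + 1)) :
    (truncC n * truncN t * (truncC n).transpose) a b
      = (if a = b then truncD t a else 0) + truncU1 n a * truncU1 n b
        - (∏ i, t i) * (truncU2 t a * truncU2 t b) := by
  refine Fin.cases ?_ (fun i => ?_) a <;> refine Fin.cases ?_ (fun j => ?_) b
  · rw [truncN_sum t (truncC n) (fun k => by simp [truncC])]
    simp [truncD, truncU1, truncU2]
    ring
  · rw [Matrix.mul_assoc, dc_C_mul, if_pos rfl]
    simp only [dc_mul_Ct, if_neg (Fin.succ_ne_zero j)]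
    rw [dc_col_sum]
    simp [truncU1, truncU2, (Fin.succ_ne_zero j).symm]
    ring
  · rw [dc_mul_Ct, if_pos rfl]
    simp only [dc_C_mul, if_neg (Fin.succ_ne_zero i)]
    rw [dc_row_sum]
    simp [truncU1, truncU2]
    ring
  · rw [dc_mul_Ct, if_neg (Fin.succ_ne_zero j), dc_C_mul, if_neg (Fin.succ_ne_zero i),
      truncN_succ_succ]
    by_cases hij : i = j
    · subst hij
      simp [truncD, truncU1, truncU2]
      ring
    · simp [truncU1, truncU2, hij]

end Vale.Agent.H51.Trunc
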