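import Mathlib
import Vale.Agent.H68.IsoRatio
import Vale.Agent.H51.Trunc.Det

/-! Row R10a: two triangular determinants. -/

namespace Vale.Agent.H51.Trunc

open Matrix Vale.Agent.H68

variable {n : ℕ}

/-- R10a.  `truncT t` is upper triangular with diagonal `1, t 0, ..., t (n-1)`
(`Matrix.det_of_upperTriangular` + `Fin.prod_univ_succ`, or `det_succ_column_zero`). -/
lemma det_truncT (t : Fin n → ℝ) : (truncT t).det = ∏ i, t i := by
  have hT : (truncT t).BlockTriangular id := by
    intro a b hab
    simp only [id] at hab
    induction a using Fin.cases with
    | zero => exact absurd hab (Fin.not_lt_zero b)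
    | succ i =>
      induction b using Fin.cases with
      | zero => simp
      | succ j =>
        have hij : i ≠ j := by
          intro h
          subst h
          exact lt_irrefl _ hab
        simp [hij]
  rw [Matrix.det_of_upperTriangular hT, Fin.prod_univ_succ]
  simp

/-- R10c. (upper triangular with ones on the diagonal) -/
lemma det_truncC (n : ℕ) : (truncC n).det = 1 := by
  have hC : (truncC n).BlockTriangular id := by
    intro a b hab
    simp only [id] at hab
    have ha : a ≠ 0 := by
      intro h
      subst h
      exact absurd hab (Fin.not_lt_zero b)
    have hab' : a ≠ b := ne_of_gt hab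
    simp [truncC, ha, hab']
  rw [Matrix.det_of_upperTriangular hC]
  apply Finset.prod_eq_one
  intro a _
  by_cases ha : a = 0 <;> simp [truncC, ha]

end Vale.Agent.H51.Trunc
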