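import Mathlib
import Vale.Agent.H68.IsoRatio
import Vale.Agent.H51.Trunc.DetSmall
import Vale.Agent.H51.Trunc.DetCongr
import Vale.Agent.H51.Trunc.DetRank

/-! Row R10e: `det N = (n + 2) * truncFn t`. -/

namespace Vale.Agent.H51.Trunc

open Matrix Vale.Agent.H68

variable {n : ℕ}

/-- the final rational identity of row R10e -/
lemma dm_identity (nn p S0 S1 S2 P : ℝ) (hp : 1 - p ≠ 0) (hS : S0 - p * S2 = nn) :
    (-(nn + 2) * (1 - p) * P) *
        ((1 + (-((nn + 2) / (1 - p)) + S0)) * (1 - p * (-((nn + 2) / (1 - p)) + S2))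
          + p * (-((nn + 2) / (1 - p)) + S1) ^ 2)
      = (nn + 2) * (P * ((1 - p) - 2 * p * (S0 - 2 * S1 + S2) - p * (S0 - S1) ^ 2
          + p ^ 2 * (S1 - S2) ^ 2)) := by
  subst hS
  field_simp
  ring

/-- R10e.  Assembly: `det N = det (C N Cᵀ)` (`det_truncC`), `truncC_mul_truncN`,
`det_diag_rank_two` with `d = truncD t`, `Fin.prod_univ_succ`, `Fin.sum_univ_succ`; with
`S0 = ∑ 1/c_i`, `S1 = ∑ t_i/c_i`, `S2 = ∑ t_i^2/c_i`, `g = (n+2)/(1-p)` one gets
`det N = -(n+2)(1-p) ∏ c_i * ((1 + S0 - g)(1 - p S2 + p g) + p (S1 - g)^2)`, and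
`S0 - p S2 = n` (termwise `(1 - p t_i^2)/c_i = 1`) turns this into `(n+2) * truncFn t`
(the polynomial identity `(1-p) Q = (1 + p(n+1) - p(1-p) S2)^2 - p ((1-p) S1 - (n+2))^2`). -/
theorem det_truncN (t : Fin n → ℝ) (ht : ∀ i, 0 < t i ∧ t i < 1) :
    (truncN t).det = ((n : ℝ) + 2) * truncFn t := by
  have h1 : (truncN t).det = (truncC n * truncN t * (truncC n).transpose).det := by
    rw [Matrix.det_mul, Matrix.det_mul, Matrix.det_transpose, det_truncC]
    ring
  have h2 : truncC n * truncN t * (truncC n).transpose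
      = Matrix.of fun a b : Fin (n + 1) => (if a = b then truncD t a else 0)
          + truncU1 n a * truncU1 n b - (∏ i, t i) * (truncU2 t a * truncU2 t b) := by
    ext a b
    rw [truncC_mul_truncN]
    rfl
  rw [h1, h2]
  rcases Nat.eq_zero_or_pos n with hn | hn
  · subst hn
    refine (Matrix.det_fin_one _).trans ?_
    simp [truncD, truncU1, truncU2, truncFn]
  · have hp0 : 0 < ∏ i, t i := Finset.prod_pos (fun i _ => (ht i).1)
    have hp1 : ∏ i, t i < 1 := by
      have hne : (Finset.univ : Finset (Fin n)).Nonempty := ⟨⟨0, hn⟩, Finset.mem_univ _⟩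
      have h := Finset.prod_lt_prod_of_nonempty (s := (Finset.univ : Finset (Fin n)))
        (f := t) (g := fun _ => (1 : ℝ)) (fun i _ => (ht i).1) (fun i _ => (ht i).2) hne
      simpa using h
    have hc : ∀ i, 0 < 1 - (∏ j, t j) * t i ^ 2 := by
      intro i
      have h1 := (ht i).1
      have h2 := (ht i).2
      have h3 : t i ^ 2 < 1 := by nlinarith
      have h4 : (∏ j, t j) * t i ^ 2 < 1 := by nlinarith [sq_nonneg (t i)]
      linarith
    have hq : (1 : ℝ) - ∏ i, t i ≠ 0 := by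
      have : 0 < 1 - ∏ i, t i := by linarith
      exact this.ne'
    have hn2 : (0 : ℝ) < (n : ℝ) + 2 := by positivity
    have hd : ∀ a, truncD t a ≠ 0 := by
      intro a
      refine Fin.cases ?_ (fun i => ?_) a
      · simp only [truncD, Fin.cases_zero]
        have h : 0 < ((n : ℝ) + 2) * (1 - ∏ i, t i) := mul_pos hn2 (by linarith)
        intro h0
        linarith
      · simp only [truncD, Fin.cases_succ]
        exact (hc i).ne'
    rw [det_diag_rank_two _ _ _ _ hd]
    have e1 : ∑ a, truncU1 n a ^ 2 / truncD t a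
        = -(((n : ℝ) + 2) / (1 - ∏ i, t i)) + ∑ i, 1 / (1 - (∏ j, t j) * t i ^ 2) := by
      rw [Fin.sum_univ_succ]
      simp only [truncU1, truncD, Fin.cases_zero, Fin.cases_succ, one_pow]
      congr 1
      field_simp
    have e2 : ∑ a, truncU2 t a ^ 2 / truncD t a
        = -(((n : ℝ) + 2) / (1 - ∏ i, t i)) + ∑ i, t i ^ 2 / (1 - (∏ j, t j) * t i ^ 2) := by
      rw [Fin.sum_univ_succ]
      simp only [truncU2, truncD, Fin.cases_zero, Fin.cases_succ]
      congr 1
      field_simp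
    have e3 : ∑ a, truncU1 n a * truncU2 t a / truncD t a
        = -(((n : ℝ) + 2) / (1 - ∏ i, t i)) + ∑ i, t i / (1 - (∏ j, t j) * t i ^ 2) := by
      rw [Fin.sum_univ_succ]
      simp only [truncU1, truncU2, truncD, Fin.cases_zero, Fin.cases_succ, one_mul]
      congr 1
      field_simp
    have e4 : ∏ a, truncD t a
        = -((n : ℝ) + 2) * (1 - ∏ i, t i) * ∏ i, (1 - (∏ j, t j) * t i ^ 2) := by
      rw [Fin.prod_univ_succ]
      simp only [truncD, Fin.cases_zero, Fin.cases_succ]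
    have hS : (∑ i, 1 / (1 - (∏ j, t j) * t i ^ 2))
        - (∏ j, t j) * ∑ i, t i ^ 2 / (1 - (∏ j, t j) * t i ^ 2) = (n : ℝ) := by
      rw [Finset.mul_sum, ← Finset.sum_sub_distrib]
      have h : ∀ i ∈ (Finset.univ : Finset (Fin n)),
          1 / (1 - (∏ j, t j) * t i ^ 2)
            - (∏ j, t j) * (t i ^ 2 / (1 - (∏ j, t j) * t i ^ 2)) = 1 := by
        intro i _
        have := (hc i).ne'
        field_simp
      rw [Finset.sum_congr rfl h]
      simp
    rw [e1, e2, e3, e4]
    unfold truncFn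
    exact dm_identity (n : ℝ) (∏ i, t i) _ _ _ _ hq hS

end Vale.Agent.H51.Trunc
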