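import Mathlib
import Vale.Agent.H51.Trunc.Core

/-! Row R9: from the multiset form to the closed form `truncFn`. -/

namespace Vale.Agent.H51.Trunc

/-- With `y = sqrt p`, `p = ∏ t i`, `c i = 1 - p (t i)^2 = (1 - t i y)(1 + t i y)`:
`fa y t = y (1-t)(1 - t y)/c`, `fb y t = y (1-t)(1 + t y)/c`, so
`∑ fa = y (S0 - (1+y) S1 + y S2)`, `∑ fb = y (S0 - (1-y) S1 - y S2)` and
`sA * sB = (1-p) - 2p(S0 - 2 S1 + S2) - p (S0 - S1)^2 + p^2 (S1 - S2)^2` (ring, `y^2 = p`). -/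
lemma truncFn_eq_sF {n : ℕ} (hn : 0 < n) (t : Fin n → ℝ) (ht : ∀ i, 0 < t i ∧ t i < 1) :
    truncFn t = sF (Real.sqrt (∏ i, t i)) (Finset.univ.val.map t) := by
  have hp0 : 0 < ∏ i, t i := Finset.prod_pos fun i _ => (ht i).1
  have hp1 : ∏ i, t i ≤ 1 :=
    Finset.prod_le_one (fun i _ => (ht i).1.le) (fun i _ => (ht i).2.le)
  obtain ⟨y, hy⟩ : ∃ y, y = Real.sqrt (∏ i, t i) := ⟨_, rfl⟩
  have hy0 : 0 < y := hy ▸ Real.sqrt_pos.mpr hp0
  have hp : ∏ i, t i = y ^ 2 := by rw [hy, Real.sq_sqrt hp0.le]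
  have hy1 : y ≤ 1 := by
    by_contra h
    push Not at h
    nlinarith
  rw [← hy]
  have hm : ∀ i, 0 < 1 - t i * y := fun i => by nlinarith [(ht i).1, (ht i).2]
  have hq : ∀ i, 0 < 1 + t i * y := fun i => by nlinarith [(ht i).1, (ht i).2]
  have hfa : ∀ i, fa y (t i) = y * (1 / (1 - y ^ 2 * t i ^ 2)
      - (1 + y) * (t i / (1 - y ^ 2 * t i ^ 2)) + y * (t i ^ 2 / (1 - y ^ 2 * t i ^ 2))) := by
    intro i
    have e : 1 / (1 - y ^ 2 * t i ^ 2) - (1 + y) * (t i / (1 - y ^ 2 * t i ^ 2))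
        + y * (t i ^ 2 / (1 - y ^ 2 * t i ^ 2))
        = (1 - t i) * (1 - t i * y) / (1 - y ^ 2 * t i ^ 2) := by
      ring
    have hc' : 1 - y ^ 2 * t i ^ 2 = (1 + t i * y) * (1 - t i * y) := by ring
    unfold fa
    rw [e, hc', mul_div_mul_right _ _ (hm i).ne', mul_div_assoc]
  have hfb : ∀ i, fb y (t i) = y * (1 / (1 - y ^ 2 * t i ^ 2)
      - (1 - y) * (t i / (1 - y ^ 2 * t i ^ 2)) - y * (t i ^ 2 / (1 - y ^ 2 * t i ^ 2))) := by
    intro i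
    have e : 1 / (1 - y ^ 2 * t i ^ 2) - (1 - y) * (t i / (1 - y ^ 2 * t i ^ 2))
        - y * (t i ^ 2 / (1 - y ^ 2 * t i ^ 2))
        = (1 - t i) * (1 + t i * y) / (1 - y ^ 2 * t i ^ 2) := by
      ring
    have hc' : 1 - y ^ 2 * t i ^ 2 = (1 - t i * y) * (1 + t i * y) := by ring
    unfold fb
    rw [e, hc', mul_div_mul_right _ _ (hq i).ne', mul_div_assoc]
  have hsA : sA y (Finset.univ.val.map t) = (1 - y) - y * ((∑ i, 1 / (1 - y ^ 2 * t i ^ 2))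
      - (1 + y) * (∑ i, t i / (1 - y ^ 2 * t i ^ 2))
      + y * ∑ i, t i ^ 2 / (1 - y ^ 2 * t i ^ 2)) := by
    unfold sA
    rw [Multiset.map_map]
    have h1 : ((Finset.univ : Finset (Fin n)).val.map (fa y ∘ t)).sum = ∑ i, fa y (t i) := rfl
    rw [h1, Finset.sum_congr rfl (fun i _ => hfa i), ← Finset.mul_sum, Finset.sum_add_distrib,
      Finset.sum_sub_distrib, ← Finset.mul_sum, ← Finset.mul_sum]
  have hsB : sB y (Finset.univ.val.map t) = (1 + y) + y * ((∑ i, 1 / (1 - y ^ 2 * t i ^ 2))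
      - (1 - y) * (∑ i, t i / (1 - y ^ 2 * t i ^ 2))
      - y * ∑ i, t i ^ 2 / (1 - y ^ 2 * t i ^ 2)) := by
    unfold sB
    rw [Multiset.map_map]
    have h1 : ((Finset.univ : Finset (Fin n)).val.map (fb y ∘ t)).sum = ∑ i, fb y (t i) := rfl
    rw [h1, Finset.sum_congr rfl (fun i _ => hfb i), ← Finset.mul_sum, Finset.sum_sub_distrib,
      Finset.sum_sub_distrib, ← Finset.mul_sum, ← Finset.mul_sum]
  have hsC : sC y (Finset.univ.val.map t) = ∏ i, (1 - y ^ 2 * t i ^ 2) := by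
    unfold sC
    rw [Multiset.map_map]
    rfl
  unfold truncFn sF
  rw [hsA, hsB, hsC, hp]
  ring

theorem truncFn_lt {n : ℕ} (hn : 2 ≤ n) (t : Fin n → ℝ) (ht : ∀ i, 0 < t i ∧ t i < 1) :
    truncFn t < (1 - ∏ i, t i) ^ (n + 3) := by
  have hn0 : 0 < n := by omega
  rw [truncFn_eq_sF hn0 t ht]
  have hp0 : 0 < ∏ i, t i := Finset.prod_pos fun i _ => (ht i).1
  have hp1 : ∏ i, t i < 1 := by
    have hmem : (⟨0, hn0⟩ : Fin n) ∈ (Finset.univ : Finset (Fin n)) := Finset.mem_univ _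
    rw [← Finset.mul_prod_erase _ _ hmem]
    have h1 : ∏ i ∈ (Finset.univ : Finset (Fin n)).erase ⟨0, hn0⟩, t i ≤ 1 :=
      Finset.prod_le_one (fun i _ => (ht i).1.le) (fun i _ => (ht i).2.le)
    have h2 : 0 ≤ ∏ i ∈ (Finset.univ : Finset (Fin n)).erase ⟨0, hn0⟩, t i :=
      Finset.prod_nonneg (fun i _ => (ht i).1.le)
    nlinarith [(ht ⟨0, hn0⟩).1, (ht ⟨0, hn0⟩).2]
  obtain ⟨y, hy⟩ : ∃ y, y = Real.sqrt (∏ i, t i) := ⟨_, rfl⟩
  have hy0 : 0 < y := hy ▸ Real.sqrt_pos.mpr hp0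
  have hysq : y ^ 2 = ∏ i, t i := by rw [hy, Real.sq_sqrt hp0.le]
  have hy1 : y < 1 := by
    by_contra h
    push Not at h
    nlinarith
  rw [← hy]
  have hcard : Multiset.card ((Finset.univ : Finset (Fin n)).val.map t) = n := by
    rw [Multiset.card_map]
    exact (Finset.card_univ.trans (Fintype.card_fin n))
  have h := sF_lt y hy0 hy1 ((Finset.univ : Finset (Fin n)).val.map t) (by
      intro x hx
      rw [Multiset.mem_map] at hx
      obtain ⟨i, _, rfl⟩ := hx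
      exact ht i) (by
      rw [hysq]
      rfl) (by
      rw [hcard]
      exact hn)
  rw [hcard, hysq] at h
  exact h

end Vale.Agent.H51.Trunc
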