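import Mathlib
import Vale.Agent.H68.Moment
import Vale.Agent.H51.Trunc.Det

/-! Row R11a: definitions and small lemmas for the geometry of the corner-truncated simplex, every `n`
(general-`n` version of the `n = 3` files `H68.TruncGeom`, `H68.TruncMoment`). -/

namespace Vale.Agent.H51.Trunc

open MeasureTheory Set Matrix Vale.Agent.H68

variable {n : ℕ}

/-- vertices of the cut-off corner simplex: `v 0` and the cut points on the edges at `v 0` -/
def cornerPts (v : Fin (n + 1) → Fin n → ℝ) (t : Fin n → ℝ) : Fin (n + 1) → Fin n → ℝ :=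
  Fin.cases (motive := fun _ => Fin n → ℝ) (v 0) (fun i => v 0 + t i • (v i.succ - v 0))

/-- vertices of the truncated simplex: `v 1, ..., v n` and the `n` cut points -/
def truncPts (v : Fin (n + 1) → Fin n → ℝ) (t : Fin n → ℝ) : Fin (n + n) → Fin n → ℝ :=
  Fin.append (fun i => v i.succ) (fun i => v 0 + t i • (v i.succ - v 0))

/-- barycentric coordinates with respect to the simplex `v` -/
noncomputable def bary (v : Fin (n + 1) → Fin n → ℝ) (x : Fin n → ℝ) : Fin (n + 1) → ℝ :=
  (liftMat v)⁻¹.mulVec (lift x)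

/-- R11a -/
lemma liftMat_cornerPts (v : Fin (n + 1) → Fin n → ℝ) (t : Fin n → ℝ) :
    liftMat (cornerPts v t) = liftMat v * truncT t := by
  ext a k
  rw [Matrix.mul_apply, Fin.sum_univ_succ]
  refine Fin.cases ?_ (fun j => ?_) k
  · simp only [truncT_zero_zero, truncT_succ_zero, mul_one, mul_zero, Finset.sum_const_zero,
      add_zero]
    refine Fin.cases ?_ (fun l => ?_) a
    · rfl
    · rfl
  · simp only [truncT_zero_succ, truncT_succ_succ]
    rw [Finset.sum_eq_single j]
    · rw [if_pos rfl]
      refine Fin.cases ?_ (fun l => ?_) a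
      · simp only [liftMat_zero]
        ring
      · simp only [liftMat_succ]
        have e : cornerPts v t j.succ = v 0 + t j • (v j.succ - v 0) := rfl
        rw [e]
        simp only [Pi.add_apply, Pi.smul_apply, Pi.sub_apply, smul_eq_mul]
        ring
    · intro i _ hij
      rw [if_neg hij, mul_zero]
    · intro h
      exact absurd (Finset.mem_univ j) h

/-- R11a.  (`(liftMat v).mulVec (bary v x) = lift x`, row `0` of `liftMat v` is all ones) -/
lemma bary_sum (v : Fin (n + 1) → Fin n → ℝ) (hW : (liftMat v).det ≠ 0) (x : Fin n → ℝ) :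
    ∑ a, bary v x a = 1 := by
  have hu : IsUnit (liftMat v).det := isUnit_iff_ne_zero.mpr hW
  have h : (liftMat v).mulVec (bary v x) = lift x := by
    unfold bary
    rw [Matrix.mulVec_mulVec, Matrix.mul_nonsing_inv _ hu, Matrix.one_mulVec]
  rw [← liftMat_mulVec_zero v (bary v x), h, lift_zero]

/-- R11a.  (`mem_convexHull_range_iff_inv`) -/
lemma mem_simplex_iff (v : Fin (n + 1) → Fin n → ℝ) (hW : (liftMat v).det ≠ 0) (x : Fin n → ℝ) :
    x ∈ convexHull ℝ (Set.range v) ↔ ∀ a, 0 ≤ bary v x a :=
  mem_convexHull_range_iff_inv v hW x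

/-- R11a -/
lemma range_truncPts (v : Fin (n + 1) → Fin n → ℝ) (t : Fin n → ℝ) :
    Set.range (truncPts v t)
      = Set.range (fun i : Fin n => v i.succ)
        ∪ Set.range (fun i : Fin n => v 0 + t i • (v i.succ - v 0)) := by
  unfold truncPts
  ext x
  simp only [Set.mem_range, Set.mem_union]
  constructor
  · rintro ⟨k, rfl⟩
    refine Fin.addCases (fun i => ?_) (fun i => ?_) k
    · left
      exact ⟨i, by rw [Fin.append_left]⟩
    · right
      exact ⟨i, by rw [Fin.append_right]⟩
  · rintro (⟨i, rfl⟩ | ⟨i, rfl⟩)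
    · exact ⟨Fin.castAdd n i, by rw [Fin.append_left]⟩
    · exact ⟨Fin.natAdd n i, by rw [Fin.append_right]⟩

end Vale.Agent.H51.Trunc
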