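import Mathlib
import Vale.Agent.H68.Moment
import Vale.Agent.H51.Trunc.Geom

/-! Row R11b: membership in the cut-off corner simplex. -/

namespace Vale.Agent.H51.Trunc

open MeasureTheory Set Matrix Vale.Agent.H68

variable {n : ℕ}

/-- row `0` of `truncT t` applied to a vector -/
lemma gcr_truncT_mulVec_zero (t : Fin n → ℝ) (s : Fin (n + 1) → ℝ) :
    (truncT t).mulVec s 0 = s 0 + ∑ j, (1 - t j) * s j.succ := by
  simp [Matrix.mulVec, dotProduct, Fin.sum_univ_succ]

/-- row `i + 1` of `truncT t` applied to a vector -/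
lemma gcr_truncT_mulVec_succ (t : Fin n → ℝ) (s : Fin (n + 1) → ℝ) (i : Fin n) :
    (truncT t).mulVec s i.succ = t i * s i.succ := by
  simp [Matrix.mulVec, dotProduct, Fin.sum_univ_succ]

/-- R11b.  `x = μ_0 v_0 + ∑ μ_i w_i` (`w_i` the cut points) has barycentric coordinates
`λ_(i+1) = μ_i t_i`, `λ_0 = μ_0 + ∑ μ_i (1 - t_i)`; conversely `μ_i = λ_(i+1)/t_i`,
`μ_0 = 1 - ∑ μ_i`.  Use `mem_convexHull_range_iff_lift`, `liftMat_cornerPts`. -/
lemma mem_corner_iff (v : Fin (n + 1) → Fin n → ℝ) (hW : (liftMat v).det ≠ 0) (t : Fin n → ℝ)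
    (ht : ∀ i, 0 < t i ∧ t i < 1) (x : Fin n → ℝ) :
    x ∈ convexHull ℝ (Set.range (cornerPts v t))
      ↔ (∀ a, 0 ≤ bary v x a) ∧ ∑ i, bary v x i.succ / t i ≤ 1 := by
  have hu : IsUnit (liftMat v).det := isUnit_iff_ne_zero.mpr hW
  have hsum := bary_sum v hW x
  rw [Fin.sum_univ_succ] at hsum
  have hbary : (liftMat v).mulVec (bary v x) = lift x := by
    unfold bary
    rw [Matrix.mulVec_mulVec, Matrix.mul_nonsing_inv _ hu, Matrix.one_mulVec]
  have key : ∀ s : Fin (n + 1) → ℝ,
      (liftMat (cornerPts v t)).mulVec s = lift x ↔ (truncT t).mulVec s = bary v x := by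
    intro s
    rw [liftMat_cornerPts, ← Matrix.mulVec_mulVec]
    constructor
    · intro h
      unfold bary
      rw [← h, Matrix.mulVec_mulVec, Matrix.nonsing_inv_mul _ hu, Matrix.one_mulVec]
    · intro h
      rw [h]; exact hbary
  rw [mem_convexHull_range_iff_lift]
  constructor
  · rintro ⟨s, hs0, hs⟩
    rw [key] at hs
    have e0 : s 0 + ∑ j, (1 - t j) * s j.succ = bary v x 0 := by
      rw [← gcr_truncT_mulVec_zero, hs]
    have es : ∀ i : Fin n, t i * s i.succ = bary v x i.succ := by
      intro i; rw [← gcr_truncT_mulVec_succ, hs]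
    have hdiv : ∀ i : Fin n, bary v x i.succ / t i = s i.succ := by
      intro i
      have := (ht i).1.ne'
      rw [← es i]; field_simp
    have h2 : ∑ j : Fin n, (1 - t j) * s j.succ
        = ∑ j : Fin n, s j.succ - ∑ j : Fin n, t j * s j.succ := by
      rw [← Finset.sum_sub_distrib]; apply Finset.sum_congr rfl; intro j _; ring
    have h1 : ∑ i : Fin n, bary v x i.succ = ∑ i : Fin n, t i * s i.succ :=
      Finset.sum_congr rfl (fun i _ => (es i).symm)
    refine ⟨?_, ?_⟩
    · intro a
      refine Fin.cases ?_ (fun i => ?_) a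
      · rw [← e0]
        have : 0 ≤ ∑ j, (1 - t j) * s j.succ :=
          Finset.sum_nonneg (fun j _ => mul_nonneg (by linarith [(ht j).2]) (hs0 _))
        linarith [hs0 0]
      · rw [← es i]; exact mul_nonneg (ht i).1.le (hs0 _)
    · have h3 : ∑ i : Fin n, bary v x i.succ / t i = ∑ i : Fin n, s i.succ :=
        Finset.sum_congr rfl (fun i _ => hdiv i)
      rw [h3]
      have := hs0 0
      linarith
  · rintro ⟨hc0, hle⟩
    refine ⟨Fin.cases (motive := fun _ => ℝ) (1 - ∑ i, bary v x i.succ / t i)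
      (fun i => bary v x i.succ / t i), ?_, ?_⟩
    · intro a
      refine Fin.cases ?_ (fun i => ?_) a
      · simp only [Fin.cases_zero]; linarith
      · simp only [Fin.cases_succ]; exact div_nonneg (hc0 _) (ht i).1.le
    · rw [key]
      funext a
      refine Fin.cases ?_ (fun i => ?_) a
      · rw [gcr_truncT_mulVec_zero]
        simp only [Fin.cases_zero, Fin.cases_succ]
        have h2 : ∑ j : Fin n, (1 - t j) * (bary v x j.succ / t j)
            = ∑ j : Fin n, bary v x j.succ / t j - ∑ j : Fin n, bary v x j.succ := by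
          rw [← Finset.sum_sub_distrib]; apply Finset.sum_congr rfl; intro j _
          have := (ht j).1.ne'
          field_simp
        linarith
      · rw [gcr_truncT_mulVec_succ]
        simp only [Fin.cases_succ]
        have := (ht i).1.ne'
        field_simp

end Vale.Agent.H51.Trunc
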