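import Mathlib
import Vale.Agent.H68.Moment
import Vale.Agent.H51.Trunc.Geom

/-! Row R11c: membership in the truncated simplex. -/

namespace Vale.Agent.H51.Trunc

open MeasureTheory Set Matrix Vale.Agent.H68

variable {n : ℕ}

/-- `(liftMat v).mulVec (bary v x) = lift x` -/
lemma gtr_mulVec_bary (v : Fin (n + 1) → Fin n → ℝ) (hW : (liftMat v).det ≠ 0) (x : Fin n → ℝ) :
    (liftMat v).mulVec (bary v x) = lift x := by
  have hu : IsUnit (liftMat v).det := isUnit_iff_ne_zero.mpr hW
  unfold bary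
  rw [Matrix.mulVec_mulVec, Matrix.mul_nonsing_inv _ hu, Matrix.one_mulVec]

/-- uniqueness of barycentric coordinates -/
lemma gtr_eq_bary (v : Fin (n + 1) → Fin n → ℝ) (hW : (liftMat v).det ≠ 0) (x : Fin n → ℝ)
    (z : Fin (n + 1) → ℝ) (h : (liftMat v).mulVec z = lift x) : z = bary v x := by
  have hu : IsUnit (liftMat v).det := isUnit_iff_ne_zero.mpr hW
  unfold bary
  rw [← h, Matrix.mulVec_mulVec, Matrix.nonsing_inv_mul _ hu, Matrix.one_mulVec]

/-- the lift of a cut point in terms of the lifted vertices -/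
lemma gtr_lift_cut (v : Fin (n + 1) → Fin n → ℝ) (t : Fin n → ℝ) (i : Fin n) (a : Fin (n + 1)) :
    lift (v 0 + t i • (v i.succ - v 0)) a = (1 - t i) * liftMat v a 0 + t i * liftMat v a i.succ := by
  refine Fin.cases ?_ (fun j => ?_) a
  · simp
  · simp only [lift_succ, liftMat_succ, Pi.add_apply, Pi.smul_apply, Pi.sub_apply, smul_eq_mul]
    ring

/-- a combination of the vertices of the truncated simplex, as a combination of the vertices of
the simplex -/
lemma gtr_mulVec_truncPts (v : Fin (n + 1) → Fin n → ℝ) (t : Fin n → ℝ) (u : Fin (n + n) → ℝ) :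
    (liftMat (truncPts v t)).mulVec u
      = (liftMat v).mulVec (Fin.cases (motive := fun _ => ℝ)
          (∑ i, (1 - t i) * u (Fin.natAdd n i))
          (fun i => u (Fin.castAdd n i) + t i * u (Fin.natAdd n i))) := by
  funext a
  simp only [Matrix.mulVec, dotProduct]
  rw [Fin.sum_univ_add, Fin.sum_univ_succ]
  simp only [Fin.cases_zero, Fin.cases_succ]
  have h1 : ∀ i : Fin n, liftMat (truncPts v t) a (Fin.castAdd n i) = liftMat v a i.succ := by
    intro i
    show lift (truncPts v t (Fin.castAdd n i)) a = lift (v i.succ) a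
    unfold truncPts
    rw [Fin.append_left]
  have h2 : ∀ i : Fin n, liftMat (truncPts v t) a (Fin.natAdd n i)
      = (1 - t i) * liftMat v a 0 + t i * liftMat v a i.succ := by
    intro i
    rw [← gtr_lift_cut v t i a]
    show lift (truncPts v t (Fin.natAdd n i)) a = _
    unfold truncPts
    rw [Fin.append_right]
  simp only [h1, h2]
  rw [Finset.mul_sum, ← Finset.sum_add_distrib, ← Finset.sum_add_distrib]
  refine Finset.sum_congr rfl (fun i _ => ?_)
  ring

/-- R11c.  `x = ∑ α_i v_(i+1) + ∑ β_i w_i` has `λ_(i+1) = α_i + β_i t_i`,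
`λ_0 = ∑ β_i (1 - t_i)`, so `∑ λ_(i+1)/t_i = ∑ α_i/t_i + ∑ β_i ≥ 1`.  Conversely, with
`r = ∑ λ_(i+1)/t_i ≥ 1` put `c = λ_0 / (r - 1 + λ_0)` (note `r - 1 + λ_0 > 0` because
`r > ∑ λ_(i+1) = 1 - λ_0` unless all `λ_(i+1) = 0`, which contradicts `r ≥ 1`), `β_i = c λ_(i+1)/t_i`,
`α_i = (1 - c) λ_(i+1)`. -/
lemma mem_trunc_iff (v : Fin (n + 1) → Fin n → ℝ) (hW : (liftMat v).det ≠ 0) (t : Fin n → ℝ)
    (ht : ∀ i, 0 < t i ∧ t i < 1) (x : Fin n → ℝ) :
    x ∈ convexHull ℝ (Set.range (truncPts v t))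
      ↔ (∀ a, 0 ≤ bary v x a) ∧ 1 ≤ ∑ i, bary v x i.succ / t i := by
  rw [mem_convexHull_range_iff_lift]
  constructor
  · rintro ⟨u, hu0, hu⟩
    have hsum : ∑ k, u k = 1 := by
      have h := congrFun hu 0
      rw [liftMat_mulVec_zero, lift_zero] at h
      exact h
    rw [Fin.sum_univ_add] at hsum
    rw [gtr_mulVec_truncPts] at hu
    have hb := gtr_eq_bary v hW x _ hu
    have hb0 : bary v x 0 = ∑ i, (1 - t i) * u (Fin.natAdd n i) := (congrFun hb 0).symm
    have hbs : ∀ i : Fin n, bary v x i.succ = u (Fin.castAdd n i) + t i * u (Fin.natAdd n i) :=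
      fun i => (congrFun hb i.succ).symm
    refine ⟨?_, ?_⟩
    · intro a
      refine Fin.cases ?_ (fun i => ?_) a
      · rw [hb0]
        exact Finset.sum_nonneg (fun i _ => mul_nonneg (by linarith [(ht i).2]) (hu0 _))
      · rw [hbs]
        exact add_nonneg (hu0 _) (mul_nonneg (ht i).1.le (hu0 _))
    · rw [← hsum, ← Finset.sum_add_distrib]
      refine Finset.sum_le_sum (fun i _ => ?_)
      rw [hbs, le_div_iff₀ (ht i).1]
      have h1 := hu0 (Fin.castAdd n i)
      have h2 := hu0 (Fin.natAdd n i)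
      nlinarith [(ht i).1, (ht i).2, mul_nonneg h1 (by linarith [(ht i).2] : (0:ℝ) ≤ 1 - t i)]
  · rintro ⟨hc, hr⟩
    have hsum := bary_sum v hW x
    rw [Fin.sum_univ_succ] at hsum
    obtain ⟨c, hcdef⟩ : ∃ c : Fin (n + 1) → ℝ, c = bary v x := ⟨_, rfl⟩
    rw [← hcdef] at hc hr hsum
    have q0 := hc 0
    -- `δ = r - 1 + c 0`
    obtain ⟨δ, hδ⟩ : ∃ δ : ℝ, δ = ∑ i, c i.succ / t i - 1 + c 0 := ⟨_, rfl⟩
    have hδc : c 0 ≤ δ := by rw [hδ]; linarith
    have hδ0 : 0 ≤ δ := le_trans q0 hδc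
    obtain ⟨θ, hθ⟩ : ∃ θ : ℝ, θ = c 0 / δ := ⟨_, rfl⟩
    have hθ0 : 0 ≤ θ := by rw [hθ]; exact div_nonneg q0 hδ0
    have hθ1 : θ ≤ 1 := by rw [hθ]; exact div_le_one_of_le₀ hδc hδ0
    have hθδ : θ * δ = c 0 := by
      rcases eq_or_lt_of_le hδ0 with h | h
      · have h' : c 0 = 0 := le_antisymm (by rw [← h] at hδc; exact hδc) q0
        rw [← h, h']
        simp
      · rw [hθ]
        field_simp
    have hθ' : 0 ≤ 1 - θ := sub_nonneg.mpr hθ1
    refine ⟨Fin.append (fun i => (1 - θ) * c i.succ) (fun i => θ * (c i.succ / t i)), ?_, ?_⟩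
    · intro k
      refine Fin.addCases (fun i => ?_) (fun i => ?_) k
      · rw [Fin.append_left]
        exact mul_nonneg hθ' (hc _)
      · rw [Fin.append_right]
        exact mul_nonneg hθ0 (div_nonneg (hc _) (ht i).1.le)
    · rw [gtr_mulVec_truncPts, ← gtr_mulVec_bary v hW x, ← hcdef]
      congr 1
      funext a
      refine Fin.cases ?_ (fun i => ?_) a
      · simp only [Fin.cases_zero, Fin.append_right]
        rw [← hθδ, hδ]
        have e : ∀ i : Fin n, (1 - t i) * (θ * (c i.succ / t i))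
            = θ * (c i.succ / t i) - θ * c i.succ := by
          intro i
          have := (ht i).1.ne'
          field_simp
        rw [Finset.sum_congr rfl (fun i _ => e i), Finset.sum_sub_distrib, ← Finset.mul_sum,
          ← Finset.mul_sum]
        have hs' : ∑ i : Fin n, c i.succ = 1 - c 0 := by linarith
        rw [hs']
        ring
      · simp only [Fin.cases_succ, Fin.append_left, Fin.append_right]
        have := (ht i).1.ne'
        field_simp
        ring

end Vale.Agent.H51.Trunc
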