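import Mathlib
import Vale.Agent.H68.Moment
import Vale.Agent.H51.Trunc.GeomCorner
import Vale.Agent.H51.Trunc.GeomTrunc

/-! Row R11d: the simplex is the union of the truncated simplex and the corner, null overlap. -/

namespace Vale.Agent.H51.Trunc

open MeasureTheory Set Matrix Vale.Agent.H68

variable {n : ℕ}

/-- the barycentric coordinates of the vertex `v 0` -/
lemma gu_bary_vertex_zero (v : Fin (n + 1) → Fin n → ℝ) (hW : (liftMat v).det ≠ 0) :
    bary v (v 0) = Pi.single 0 1 := by
  have hu : IsUnit (liftMat v).det := isUnit_iff_ne_zero.mpr hW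
  have h : (liftMat v).mulVec (Pi.single 0 1) = lift (v 0) := by
    funext a
    simp [Matrix.mulVec, dotProduct, Pi.single_apply, liftMat]
  unfold bary
  rw [← h, Matrix.mulVec_mulVec, Matrix.nonsing_inv_mul _ hu, Matrix.one_mulVec]

/-- R11d.  The intersection lies in the hyperplane `∑ λ_(i+1)/t_i = 1`, which does not contain
`v 0`; `Vale.Agent.H68.null_hyperplane` (see `H68.TruncMoment` for `n = 3`). -/
lemma trunc_inter_null (v : Fin (n + 1) → Fin n → ℝ) (hW : (liftMat v).det ≠ 0) (t : Fin n → ℝ)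
    (ht : ∀ i, 0 < t i ∧ t i < 1) :
    volume (convexHull ℝ (Set.range (truncPts v t)) ∩ convexHull ℝ (Set.range (cornerPts v t)))
      = 0 := by
  obtain ⟨A, hA⟩ : ∃ A : Matrix (Fin (n + 1)) (Fin (n + 1)) ℝ, A = (liftMat v)⁻¹ := ⟨_, rfl⟩
  let α : Fin (n + 1) → ℝ := fun a =>
    (∑ i : Fin n, A i.succ a / t i) - (if a = 0 then 1 else 0)
  have hα : ∀ x : Fin n → ℝ,
      α ⬝ᵥ lift x = (∑ i : Fin n, bary v x i.succ / t i) - 1 := by
    intro x
    have h1 : ∑ a : Fin (n + 1), (∑ i : Fin n, A i.succ a / t i) * lift x a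
        = ∑ i : Fin n, bary v x i.succ / t i := by
      simp only [Finset.sum_mul]
      rw [Finset.sum_comm]
      refine Finset.sum_congr rfl fun i _ => ?_
      simp only [bary, Matrix.mulVec, dotProduct, ← hA]
      rw [Finset.sum_div]
      refine Finset.sum_congr rfl fun a _ => ?_
      ring
    have h2 : ∑ a : Fin (n + 1), (if a = 0 then (1 : ℝ) else 0) * lift x a = 1 := by
      simp
    simp only [dotProduct, α, sub_mul, Finset.sum_sub_distrib]
    rw [h1, h2]
  refine measure_mono_null ?_ (null_hyperplane α ⟨v 0, ?_⟩)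
  · rintro x ⟨hx1, hx2⟩
    have h1 := ((mem_trunc_iff v hW t ht x).mp hx1).2
    have h2 := ((mem_corner_iff v hW t ht x).mp hx2).2
    show α ⬝ᵥ lift x = 0
    rw [hα]
    linarith
  · rw [hα, gu_bary_vertex_zero v hW]
    simp [Fin.succ_ne_zero]

/-- R11d -/
lemma simplex_eq_union (v : Fin (n + 1) → Fin n → ℝ) (hW : (liftMat v).det ≠ 0) (t : Fin n → ℝ)
    (ht : ∀ i, 0 < t i ∧ t i < 1) :
    convexHull ℝ (Set.range v)
      = convexHull ℝ (Set.range (truncPts v t)) ∪ convexHull ℝ (Set.range (cornerPts v t)) := by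
  ext x
  rw [Set.mem_union, mem_simplex_iff v hW, mem_trunc_iff v hW t ht, mem_corner_iff v hW t ht]
  constructor
  · intro h
    rcases le_total 1 (∑ i : Fin n, bary v x i.succ / t i) with h' | h'
    · exact Or.inl ⟨h, h'⟩
    · exact Or.inr ⟨h, h'⟩
  · rintro (h | h) <;> exact h.1

/-- R11d.  (as `H68.momentMatrix_trunc_add`) -/
lemma momentMatrix_trunc_add (v : Fin (n + 1) → Fin n → ℝ) (hW : (liftMat v).det ≠ 0)
    (t : Fin n → ℝ) (ht : ∀ i, 0 < t i ∧ t i < 1) (a b : Fin (n + 1)) :
    momentMatrix (convexHull ℝ (Set.range v)) a b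
      = momentMatrix (convexHull ℝ (Set.range (truncPts v t))) a b
        + momentMatrix (convexHull ℝ (Set.range (cornerPts v t))) a b := by
  simp only [momentMatrix, Matrix.of_apply]
  rw [simplex_eq_union v hW t ht]
  exact setIntegral_union₀ (trunc_inter_null v hW t ht)
    (measurableSet_convexHull_range _).nullMeasurableSet (integrableOn_lift_mul _ a b)
    (integrableOn_lift_mul _ a b)

end Vale.Agent.H51.Trunc
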