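import Mathlib
import Vale.Agent.H68.IsoMain
import Vale.Agent.H68.CovPSD
import Vale.Agent.H51.Trunc.GeomUnion
import Vale.Agent.H51.Trunc.DetEntries
import Vale.Agent.H51.Trunc.DetSmall

/-! Row R12a: the normalised moment matrix of the truncated simplex (general-`n` version of `H68.momentMatrix_trunc_eq`). -/

namespace Vale.Agent.H51.Trunc

open MeasureTheory Set Matrix Vale.Agent.H68

variable {n : ℕ}

lemma prod_pos_lt_one (t : Fin n → ℝ) (ht : ∀ i, 0 < t i ∧ t i < 1) (hn : 0 < n) :
    0 < ∏ i, t i ∧ ∏ i, t i < 1 := by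
  refine ⟨Finset.prod_pos (fun i _ => (ht i).1), ?_⟩
  have h := Finset.prod_lt_prod (s := Finset.univ) (f := t) (g := fun _ => (1 : ℝ))
    (fun i _ => (ht i).1) (fun i _ => (ht i).2.le) ⟨⟨0, hn⟩, Finset.mem_univ _, (ht _).2⟩
  simpa using h

/-- R12a.  the normalised moment matrix of the truncated simplex
(copy of `H68.momentMatrix_trunc_eq`, with `120 = (3+2)!` replaced by `(n+2)!`) -/
lemma momentMatrix_trunc_eq (hn : 0 < n) (v : Fin (n + 1) → Fin n → ℝ)
    (hW : (liftMat v).det ≠ 0) (t : Fin n → ℝ) (ht : ∀ i, 0 < t i ∧ t i < 1) :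
    momentMatrix (convexHull ℝ (Set.range (truncPts v t)))
      = (|(liftMat v).det| * (1 - ∏ i, t i) / ((n + 2).factorial : ℝ)) •
        ((1 - ∏ i, t i)⁻¹ • (liftMat v * truncN t * (liftMat v).transpose)) := by
  obtain ⟨hp, hp1⟩ := prod_pos_lt_one t ht hn
  have hq : (1 - ∏ i, t i) ≠ 0 := by linarith
  have hW' : (liftMat (cornerPts v t)).det ≠ 0 := by
    rw [liftMat_cornerPts, Matrix.det_mul, det_truncT]
    exact mul_ne_zero hW hp.ne'
  have hdet' : |(liftMat (cornerPts v t)).det| = |(liftMat v).det| * (∏ i, t i) := by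
    rw [liftMat_cornerPts, Matrix.det_mul, det_truncT, abs_mul, abs_of_pos hp]
  have hfac : ((n + 2).factorial : ℝ) ≠ 0 := by positivity
  ext a b
  have hadd := momentMatrix_trunc_add v hW t ht a b
  have hS : momentMatrix (convexHull ℝ (Set.range v)) a b
      = |(liftMat v).det| / ((n + 2).factorial : ℝ) *
        (liftMat v * ((1 : Matrix (Fin (n + 1)) (Fin (n + 1)) ℝ)
            + colOne (n + 1) * rowOne (n + 1))
          * (liftMat v).transpose) a b := by
    rw [simplex_R_apply]
    exact simplex_moment v hW a b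
  have hC : momentMatrix (convexHull ℝ (Set.range (cornerPts v t))) a b
      = |(liftMat v).det| * (∏ i, t i) / ((n + 2).factorial : ℝ) *
        (liftMat v * (truncT t * ((1 : Matrix (Fin (n + 1)) (Fin (n + 1)) ℝ)
            + colOne (n + 1) * rowOne (n + 1))
          * (truncT t).transpose) * (liftMat v).transpose) a b := by
    have e : liftMat v * (truncT t * ((1 : Matrix (Fin (n + 1)) (Fin (n + 1)) ℝ)
            + colOne (n + 1) * rowOne (n + 1))
          * (truncT t).transpose) * (liftMat v).transpose
        = liftMat (cornerPts v t) * ((1 : Matrix (Fin (n + 1)) (Fin (n + 1)) ℝ)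
            + colOne (n + 1) * rowOne (n + 1))
          * (liftMat (cornerPts v t)).transpose := by
      rw [liftMat_cornerPts, Matrix.transpose_mul]
      simp only [Matrix.mul_assoc]
    rw [e, simplex_R_apply, ← hdet']
    exact simplex_moment (cornerPts v t) hW' a b
  have hN : (liftMat v * truncN t * (liftMat v).transpose) a b
      = (liftMat v * ((1 : Matrix (Fin (n + 1)) (Fin (n + 1)) ℝ)
            + colOne (n + 1) * rowOne (n + 1))
          * (liftMat v).transpose) a b
        - (∏ i, t i) *
          (liftMat v * (truncT t * ((1 : Matrix (Fin (n + 1)) (Fin (n + 1)) ℝ)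
            + colOne (n + 1) * rowOne (n + 1))
          * (truncT t).transpose) * (liftMat v).transpose) a b := by
    unfold truncN
    rw [Matrix.mul_sub, Matrix.sub_mul, Matrix.mul_smul, Matrix.smul_mul,
      Matrix.sub_apply, Matrix.smul_apply, smul_eq_mul]
  rw [Matrix.smul_apply, Matrix.smul_apply, smul_eq_mul, smul_eq_mul, hN]
  have hK : momentMatrix (convexHull ℝ (Set.range (truncPts v t))) a b
      = momentMatrix (convexHull ℝ (Set.range v)) a b
        - momentMatrix (convexHull ℝ (Set.range (cornerPts v t))) a b := by linarith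
  rw [hK, hS, hC]
  field_simp

end Vale.Agent.H51.Trunc
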