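import Mathlib
import Vale.Agent.H68.IsoMain
import Vale.Agent.H68.CovPSD
import Vale.Agent.H51.Trunc.MainMoment
import Vale.Agent.H51.Trunc.DetMain
import Vale.Agent.H51.Trunc.FnLt

/-! Row R12b: assembly (general-`n` version of `H68.isoRatio_trunc`, `H68.trunc_main`). -/

namespace Vale.Agent.H51.Trunc

open MeasureTheory Set Matrix Vale.Agent.H68

variable {n : ℕ}

/-- R12b.  the isotropic ratio of the truncated simplex (general-`n` version of
`H68.isoRatio_trunc`) -/
theorem isoRatio_trunc (hn : 0 < n) (v : Fin (n + 1) → Fin n → ℝ) (hW : (liftMat v).det ≠ 0)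
    (t : Fin n → ℝ) (ht : ∀ i, 0 < t i ∧ t i < 1) :
    (covMatrix (convexHull ℝ (Set.range (truncPts v t)))).det
        / (vol (convexHull ℝ (Set.range (truncPts v t)))) ^ 2
      = cn n * (truncFn t / (1 - ∏ i, t i) ^ (n + 3)) := by
  obtain ⟨hp, hp1⟩ := prod_pos_lt_one t ht hn
  obtain ⟨p, hpdef⟩ : ∃ p : ℝ, p = ∏ i, t i := ⟨_, rfl⟩
  rw [← hpdef] at hp hp1 ⊢
  have hq : 0 < 1 - p := by linarith
  have habs : 0 < |(liftMat v).det| := abs_pos.mpr hW
  have hfac : (0:ℝ) < ((n + 2).factorial : ℝ) := by positivity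
  have hMo := momentMatrix_trunc_eq hn v hW t ht
  rw [← hpdef] at hMo
  have hR00 : ((1 - p)⁻¹ • (liftMat v * truncN t * (liftMat v).transpose)) 0 0
      = ((n : ℝ) + 1) * ((n : ℝ) + 2) := by
    rw [Matrix.smul_apply, smul_eq_mul, truncN_sum t _ (fun k => liftMat_zero v k), ← hpdef]
    field_simp
  rw [isoRatio_general (truncPts v t) _ (by positivity) _ hMo hR00,
    Matrix.det_smul, Matrix.det_mul, Matrix.det_mul, Matrix.det_transpose, det_truncN t ht,
    Fintype.card_fin]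
  unfold cn
  have habs2 : |(liftMat v).det| ^ 2 = (liftMat v).det ^ 2 := sq_abs _
  obtain ⟨d, hd⟩ : ∃ d : ℝ, d = |(liftMat v).det| := ⟨_, rfl⟩
  rw [← hd] at habs habs2 ⊢
  have hDD : (liftMat v).det * (((n : ℝ) + 2) * truncFn t) * (liftMat v).det
      = ((n : ℝ) + 2) * truncFn t * d ^ 2 := by
    rw [habs2]
    ring
  rw [hDD]
  have hqq : (0:ℝ) < ((n : ℝ) + 1) * ((n : ℝ) + 2) := by positivity
  obtain ⟨q, hq'⟩ : ∃ q : ℝ, q = ((n : ℝ) + 1) * ((n : ℝ) + 2) := ⟨_, rfl⟩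
  rw [← hq'] at hqq ⊢
  obtain ⟨f, hf⟩ : ∃ f : ℝ, f = ((n + 2).factorial : ℝ) := ⟨_, rfl⟩
  rw [← hf] at hfac ⊢
  have e1 : (1 - p) ^ (n + 3) = (1 - p) ^ (n + 1) * (1 - p) ^ 2 := by ring
  rw [inv_pow, e1]
  field_simp

/-- R12b.  **Corner-truncated simplices have strictly smaller isotropic constant than the
simplex, in every dimension `n ≥ 2`** (general-`n` version of `H68.trunc_main`). -/
theorem trunc_main (hn : 2 ≤ n) (v : Fin (n + 1) → Fin n → ℝ) (hv : AffineIndependent ℝ v)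
    (t : Fin n → ℝ) (ht : ∀ i, 0 < t i ∧ t i < 1) :
    isoConst (convexHull ℝ (Set.range (truncPts v t)))
      < isoConst (convexHull ℝ (Set.range v)) := by
  have hn0 : 0 < n := by omega
  have hW := det_ne_zero_of_affineIndependent v hv
  obtain ⟨hp, hp1⟩ := prod_pos_lt_one t ht hn0
  have hq : 0 < 1 - ∏ i, t i := by linarith
  have hK := isoRatio_trunc hn0 v hW t ht
  have hS : (covMatrix (convexHull ℝ (Set.range v))).det / (vol (convexHull ℝ (Set.range v))) ^ 2
      = cn n := isoRatio_simplex v hW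
  have hF := truncFn_lt hn t ht
  have hc := cn_pos n
  have hlt : cn n * (truncFn t / (1 - ∏ i, t i) ^ (n + 3)) < cn n := by
    have h6 : 0 < (1 - ∏ i, t i) ^ (n + 3) := by positivity
    have h1 : truncFn t / (1 - ∏ i, t i) ^ (n + 3) < 1 := by
      rw [div_lt_one h6]
      exact hF
    nlinarith
  have hnn : 0 ≤ (covMatrix (convexHull ℝ (Set.range (truncPts v t)))).det
      / (vol (convexHull ℝ (Set.range (truncPts v t)))) ^ 2 :=
    div_nonneg (covMatrix_det_nonneg _) (sq_nonneg _)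
  have hnpos : (0:ℝ) < (n : ℝ) := by exact_mod_cast hn0
  have he : (0:ℝ) < 1 / (2 * (n : ℝ)) := by positivity
  unfold isoConst
  rw [hS]
  rw [hK] at hnn ⊢
  exact Real.rpow_lt_rpow hnn hlt he

end Vale.Agent.H51.Trunc
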